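import Mathlib

/-!
# P032: two circles with centres at distance one, the finite relations

Names `0 .. 5` of the colours; `z` has the pairs `01 | 23` and the free colours `4, 5`; the names of
`y` are permuted by `π`.  Letters of each circle: `0, 1` the free colours, `2, 3` the pairs.  Slot
`(k, j)`: circle `k`, direction `j` (units of 60 degrees).  At the special time the slot `(0, 0)` is
`y`, `(1, 3)` is `z`, `(0, 1) = (1, 2)` and `(0, 5) = (1, 4)` are the two apexes.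
-/

namespace Vale.Agent.P032.H747

/-- columns of letters -/
abbrev Col := Fin 2 × Fin 6 → Fin 4

/-- names of the colours of the letters of `z` -/
def base : Fin 4 → Finset (Fin 6) := ![{4}, {5}, {0, 1}, {2, 3}]

/-- the names used by the centre `k` -/
def nm (π : Fin 6 → Fin 6) (k : Fin 2) (i : Fin 6) : Fin 6 := if k = 0 then i else π i

/-- names of the colours of the letters -/
def KK (π : Fin 6 → Fin 6) (k : Fin 2) (l : Fin 4) : Finset (Fin 6) := (base l).image (nm π k)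

/-- legal columns -/
structure Leg (π : Fin 6 → Fin 6) (g : Col) : Prop where
  adj : ∀ k j, g (k, j) ≠ g (k, j + 1)
  prod : ∀ j, Disjoint (KK π 0 (g (0, j))) (KK π 1 (g (1, j)))
  anti : ∀ k j, ¬ (g (k, j) = 2 ∧ g (k, j + 3) = 3)

/-- possible letters `l, m` at one slot of the circle `k`; `t`: the point has the palette of the
centre; `E`: the allowed ends -/
def LocOK (E : Fin 2 → Fin 4 → Fin 4 → Bool) (t : Bool) (k : Fin 2) (l m : Fin 4) : Prop :=
  (t = true → 2 ≤ l.val ∧ 2 ≤ m.val) ∧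
  (t = false → ¬ (l = 2 ∧ m = 3) ∧ ¬ (l = 3 ∧ m = 2) ∧ E k l m = true)

/-- the letters which do not occur on the circle of `y` if `y` is not a two-pair point; `ty`: the
number of pairs of `y` -/
def TyOK (ty : Fin 3) (k : Fin 2) (l : Fin 4) : Prop :=
  k = 1 → (ty = 0 → l.val < 2) ∧ (ty = 1 → l.val < 3)

/-- neighbouring slots of one circle: no swap, except if both points have the palette of the
centre -/
def AdjOK (t t' : Bool) (l m l' m' : Fin 4) : Prop :=
  l ≠ m → l = m' → m = l' → t = true ∧ t' = true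

/-- parallel slots of the two circles: no swap, except if one of the points has the palette of its
centre -/
def CrsOK (π : Fin 6 → Fin 6) (t t' : Bool) (l m l' m' : Fin 4) : Prop :=
  ¬ Disjoint (KK π 0 l) (KK π 1 m') → ¬ Disjoint (KK π 0 m) (KK π 1 l') → t = true ∨ t' = true

/-- opposite slots of a circle whose centre is a two-pair point -/
def OppOK (ty : Fin 3) (k : Fin 2) (l m l' m' : Fin 4) : Prop :=
  k = 0 ∨ ty = 2 → (l = 2 ∨ m = 2) → (l' = 3 ∨ m' = 3) → False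

/-- two limit columns at a time which is not special; `τ s`: the point of the slot `s` has the
palette of its centre -/
structure Ev (π : Fin 6 → Fin 6) (ty : Fin 3) (E : Fin 2 → Fin 4 → Fin 4 → Bool)
    (τ : Fin 2 × Fin 6 → Bool) (h h' : Col) : Prop where
  leg : Leg π h
  leg' : Leg π h'
  tyOK : ∀ k j, TyOK ty k (h (k, j)) ∧ TyOK ty k (h' (k, j))
  loc : ∀ k j, LocOK E (τ (k, j)) k (h (k, j)) (h' (k, j))
  adj : ∀ k j, AdjOK (τ (k, j)) (τ (k, j + 1)) (h (k, j)) (h' (k, j)) (h (k, j + 1)) (h' (k, j + 1))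
  crs : ∀ j, CrsOK π (τ (0, j)) (τ (1, j)) (h (0, j)) (h' (0, j)) (h (1, j)) (h' (1, j))
  opp : ∀ k j, OppOK ty k (h (k, j)) (h' (k, j)) (h (k, j + 3)) (h' (k, j + 3))

/-- a circle through a four coloured point with the names `ν`: letters with the colours `L` on the
left, `R` on the right -/
def SplitOK (ν : Fin 6 → Fin 6) (ty : Fin 3) (L R : Finset (Fin 6)) : Prop :=
  (L ⊆ {ν 0, ν 1, ν 2, ν 3} ∧ R ⊆ {ν 0, ν 1, ν 2, ν 3}) ∧
  (ty = 2 → (L ⊆ {ν 0, ν 2} ∧ R ⊆ {ν 1, ν 3}) ∨ (L ⊆ {ν 1, ν 3} ∧ R ⊆ {ν 0, ν 2}) ∨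
    (L ⊆ {ν 0, ν 3} ∧ R ⊆ {ν 1, ν 2}) ∨ (L ⊆ {ν 1, ν 2} ∧ R ⊆ {ν 0, ν 3}))

/-- the slots of the two centres at the special time -/
def spc (k : Fin 2) (j : Fin 6) : Prop := (k = 0 ∧ j = 0) ∨ (k = 1 ∧ j = 3)

instance (k : Fin 2) (j : Fin 6) : Decidable (spc k j) := by unfold spc; infer_instance

/-- a limit column `h` from the left and a limit column `h'` from the right at the special time -/
structure Sp (π : Fin 6 → Fin 6) (ty : Fin 3) (E : Fin 2 → Fin 4 → Fin 4 → Bool)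
    (τ : Fin 2 × Fin 6 → Bool) (h h' : Col) : Prop where
  leg : Leg π h
  leg' : Leg π h'
  tyOK : ∀ k j, TyOK ty k (h (k, j)) ∧ TyOK ty k (h' (k, j))
  loc : ∀ k j, ¬ spc k j → LocOK E (τ (k, j)) k (h (k, j)) (h' (k, j))
  adj : ∀ k j, ¬ spc k j → ¬ spc k (j + 1) →
    AdjOK (τ (k, j)) (τ (k, j + 1)) (h (k, j)) (h' (k, j)) (h (k, j + 1)) (h' (k, j + 1))
  crs : ∀ j, j ≠ 0 → j ≠ 3 →
    CrsOK π (τ (0, j)) (τ (1, j)) (h (0, j)) (h' (0, j)) (h (1, j)) (h' (1, j))
  opp : ∀ k j, OppOK ty k (h (k, j)) (h' (k, j)) (h (k, j + 3)) (h' (k, j + 3))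
  atY : SplitOK π ty (KK π 0 (h (0, 0))) (KK π 0 (h' (0, 0)))
  atZ : SplitOK id 2 (KK π 1 (h (1, 3))) (KK π 1 (h' (1, 3)))
  apx : τ (0, 1) = false ∧ τ (1, 2) = false ∧ τ (0, 5) = false ∧ τ (1, 4) = false
  ap1 : (KK π 0 (h (0, 1)) ∪ KK π 0 (h' (0, 1)) ∪ KK π 1 (h (1, 2)) ∪ KK π 1 (h' (1, 2))).card ≤ 3
  ap5 : (KK π 0 (h (0, 5)) ∪ KK π 0 (h' (0, 5)) ∪ KK π 1 (h (1, 4)) ∪ KK π 1 (h' (1, 4))).card ≤ 3

/-- the rotation by 60 degrees -/
def rot (h : Col) : Col := fun s => h (s.1, s.2 + 1)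

end Vale.Agent.P032.H747
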