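import Vale.Agent.P032.H747.PairD
import Vale.Agent.P032.H98.Star
import Vale.Agent.P032.H809.Side

/-!
# P032: two circles with centres at distance one, the frame

`Pr`: `z` a two-pair point, `y` at distance one with four colours, the other points of the two
circles have at most three colours or the palette of the centre.  `Pr.sw`: the structure `Sw` of
`H383/Sweep` with the legal columns `Leg`.  `Pr.false_of`: contradiction from a function of the
columns which is invariant under `Ev` and never returns under `Sp`.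
-/

open Set Filter Topology Metric

noncomputable section

namespace Vale.Agent.P032.H747

open Vale.Agent.P032.Six Vale.Agent.P032.S5.H767 Vale.Agent.P032.S5.H122 Vale.Agent.P032.Sweep

variable {U : Fin 6 → Set ℂ} {T : ℂ → Set (Fin 6)} {z y : ℂ} {N π : Fin 6 → Fin 6} {ty : Fin 3}
  {E : Fin 2 → Fin 4 → Fin 4 → Bool} {φ : ℝ}

/-- the two centres -/
def ctr (z y : ℂ) (k : Fin 2) : ℂ := if k = 0 then z else y

@[simp] theorem ctr_zero : ctr z y 0 = z := rfl

@[simp] theorem ctr_one : ctr z y 1 = y := rfl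

/-- the colours of the centre `k` in the order of `Ctr` -/
def cn (N π : Fin 6 → Fin 6) (k : Fin 2) (i : Fin 6) : Fin 6 := N (nm π k i)

/-- the letter sets on the circle `k` -/
def Ls (T : ℂ → Set (Fin 6)) (z y : ℂ) (N π : Fin 6 → Fin 6) (k : Fin 2) : Fin 4 → Set ℂ :=
  Lt T (ctr z y k) (cn N π k 0) (cn N π k 1) (cn N π k 2) (cn N π k 3) (cn N π k 4) (cn N π k 5)

/-- the letter of a palette on the circle `k` -/
def lt2 (N π : Fin 6 → Fin 6) (k : Fin 2) : Set (Fin 6) → Fin 4 :=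
  lt98 (cn N π k 0) (cn N π k 1) (cn N π k 4) (cn N π k 5)

/-- the times at which a letter is available in a slot -/
def XP (T : ℂ → Set (Fin 6)) (z y : ℂ) (N π : Fin 6 → Fin 6) (φ : ℝ) :
    Fin 2 × Fin 6 → Fin 4 → Set ℝ := Xl T (ctr z y) φ (lt2 N π)

/-- the point of the slot `(k, j)` at the time `u` -/
def pp (z y : ℂ) (φ u : ℝ) (k : Fin 2) (j : Fin 6) : ℂ := pt (ctr z y k) (φ + u + (j.val : ℝ))

/-- **two circles with centres at distance one** -/
structure Pr (U : Fin 6 → Set ℂ) (T : ℂ → Set (Fin 6)) (z y : ℂ) (N π : Fin 6 → Fin 6) (ty : Fin 3)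
    (E : Fin 2 → Fin 4 → Fin 4 → Bool) : Prop where
  irr : Irr U T
  inj : Function.Injective N
  injπ : Function.Injective π
  zy : dist y z = 1
  dz : DPt T z (N 0) (N 1) (N 2) (N 3)
  cy : Ctr U T y (N (π 0)) (N (π 1)) (N (π 2)) (N (π 3)) (N (π 4)) (N (π 5))
  ty0 : ty = 0 → Ex T y {N (π 0), N (π 1)} = ∅ ∧ Ex T y {N (π 2), N (π 3)} = ∅
  ty1 : ty = 1 → (Ex T y {N (π 0), N (π 1)}).Nonempty ∧ Ex T y {N (π 2), N (π 3)} = ∅
  ty2 : ty = 2 → DPt T y (N (π 0)) (N (π 1)) (N (π 2)) (N (π 3))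
  pz : ∀ p, dist p z = 1 → p ≠ y → (T p).ncard ≤ 3 ∨ T p = T z
  py : ∀ p, dist p y = 1 → p ≠ z → (T p).ncard ≤ 3 ∨ T p = T y
  ap : ∀ p, dist p z = 1 → dist p y = 1 → (T p).ncard ≤ 3
  hE : ∀ k p l m, dist p (ctr z y k) = 1 → (T p).ncard ≤ 3 → p ∈ Ls T z y N π k l →
    p ∈ Ls T z y N π k m → E k l m = true

namespace Pr

variable (P : Pr U T z y N π ty E)
include P

theorem nd : [N 0, N 1, N 2, N 3, N 4, N 5].Nodup := by
  have h : ([0, 1, 2, 3, 4, 5] : List (Fin 6)).Nodup := by decide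
  exact h.map P.inj

theorem cz : Ctr U T z (N 0) (N 1) (N 2) (N 3) (N 4) (N 5) where
  irr := P.irr
  pal := P.dz.pal
  nd := P.nd
  pairs := fun q hq hloc hsub => P.irr.twoPairs P.dz q hq hloc hsub

/-- both centres are four coloured centres -/
theorem ck (k : Fin 2) : Ctr U T (ctr z y k) (cn N π k 0) (cn N π k 1) (cn N π k 2) (cn N π k 3)
    (cn N π k 4) (cn N π k 5) := by
  fin_cases k
  · exact P.cz
  · exact P.cy

theorem cn_inj (k : Fin 2) : Function.Injective (cn N π k) := by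
  fin_cases k
  · exact P.inj
  · exact P.inj.comp P.injπ

omit P in
/-- the colours of the letter `l` of the circle `k`, by names -/
theorem col_eq (k : Fin 2) (l : Fin 4) :
    col (cn N π k 0) (cn N π k 1) (cn N π k 2) (cn N π k 3) (cn N π k 4) (cn N π k 5) l =
      N '' (KK π k l : Set (Fin 6)) := by
  have h : (KK π k l : Set (Fin 6)) = nm π k '' (base l : Set (Fin 6)) := by
    unfold KK; rw [Finset.coe_image]
  rw [h, ← image_comp]
  change _ = (fun i => cn N π k i) '' _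
  fin_cases l <;> simp [S5.H767.col, base, image_pair]

/-- an available letter is a letter of the point -/
theorem mem_Ls {k : Fin 2} {j : Fin 6} {l : Fin 4} {u : ℝ} (hu : u ∈ XP T z y N π φ (k, j) l) :
    pp z y φ u k j ∈ Ls T z y N π k l := by
  obtain ⟨Q, hQ, h1, h2⟩ := Xl_pal hu
  have hsub : Q ⊆ T (pp z y φ u k j) := sub_of_closure P.irr h2
  have hQ : lt98 (cn N π k 0) (cn N π k 1) (cn N π k 4) (cn N π k 5) Q = l := hQ
  unfold lt98 at hQ
  by_cases he : cn N π k 4 ∈ Q
  · rw [if_pos he] at hQ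
    subst hQ
    exact ⟨dist_pt _ _, hsub he⟩
  rw [if_neg he] at hQ
  by_cases hf : cn N π k 5 ∈ Q
  · rw [if_pos hf] at hQ
    subst hQ
    exact ⟨dist_pt _ _, hsub hf⟩
  rw [if_neg hf] at hQ
  by_cases hab : Q = {cn N π k 0, cn N π k 1}
  · rw [if_pos hab] at hQ
    subst hQ
    subst hab
    exact h2
  rw [if_neg hab] at hQ
  subst hQ
  have hQz : Q ⊆ T (ctr z y k) := by
    intro i hi
    by_contra hcon
    rcases (P.ck k).miss hcon with rfl | rfl
    · exact he hi
    · exact hf hi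
  obtain ⟨v, hv1, hv2⟩ : ({v | v ∈ Lc T (ctr z y k) ∧ T (pt (ctr z y k) v) = Q} : Set ℝ).Nonempty :=
    closure_nonempty_iff.1 ⟨_, h1⟩
  have hcd : Q = {cn N π k 2, cn N π k 3} := by
    rcases (P.ck k).pairs (pt (ctr z y k) v) (dist_pt _ v) (Lc_circle hv1)
      (by rw [hv2]; exact hQz) with h3 | h3
    · exact absurd (hv2.symm.trans h3) hab
    · exact hv2.symm.trans h3
  rw [hcd] at h2
  exact h2

/-- the colours of an available letter are colours of the point -/
theorem mem_T {k : Fin 2} {j : Fin 6} {l : Fin 4} {u : ℝ} (hu : u ∈ XP T z y N π φ (k, j) l)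
    {i : Fin 6} (hi : i ∈ KK π k l) : N i ∈ T (pp z y φ u k j) := by
  have h1 := Lt_col P.irr (P.mem_Ls hu)
  rw [col_eq] at h1
  exact h1 ⟨i, hi, rfl⟩

/-- the letter of a constant palette -/
theorem lt_Ls {k : Fin 2} {s : ℝ} (hs : s ∈ Lc T (ctr z y k)) :
    pt (ctr z y k) s ∈ Ls T z y N π k (lt2 N π k (T (pt (ctr z y k) s))) := by
  unfold lt2 lt98
  split_ifs with he hf hab
  · exact ⟨dist_pt _ s, he⟩
  · exact ⟨dist_pt _ s, hf⟩
  · have := Lc_Ex hs
    rw [hab] at this
    exact subset_closure this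
  · have hPz : T (pt (ctr z y k) s) ⊆ T (ctr z y k) := by
      intro i hi
      by_contra hcon
      rcases (P.ck k).miss hcon with rfl | rfl
      · exact he hi
      · exact hf hi
    rcases (P.ck k).pairs (pt (ctr z y k) s) (dist_pt _ s) (Lc_circle hs) hPz with h3 | h3
    · exact absurd h3 hab
    · have := Lc_Ex hs
      rw [h3] at this
      exact subset_closure this

theorem dist_ctr {k k' : Fin 2} (hk : k ≠ k') : dist (ctr z y k) (ctr z y k') = 1 := by
  fin_cases k <;> fin_cases k'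
  · exact absurd rfl hk
  · change dist z y = 1; rw [dist_comm]; exact P.zy
  · exact P.zy
  · exact absurd rfl hk

omit P in
theorem KK_ne (k : Fin 2) (l : Fin 4) : (KK π k l).Nonempty := by
  unfold KK
  rw [Finset.image_nonempty]
  fin_cases l <;> simp [base]

/-- **the structure `Sw`** -/
theorem sw : Sw (XP T z y N π φ) (Leg π) := by
  refine sw_of P.irr (Dir_dense (ctr z y) φ) fun u hd hu => ?_
  have hav : ∀ k (j : Fin 6), u ∈ XP T z y N π φ (k, j) (lt2 N π k (T (pp z y φ u k j))) :=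
    fun k j => (Xl_Lc (hu (k, j))).2 rfl
  refine ⟨fun k j hj => ?_, fun j => ?_, fun k j hj => ?_⟩
  · have hj : lt2 N π k (T (pp z y φ u k j)) = lt2 N π k (T (pp z y φ u k (j + 1))) := hj
    have hdis : Disjoint (T (pp z y φ u k j)) (T (pp z y φ u k (j + 1))) := by
      unfold pp
      rw [pt_succ]
      exact dj_sixty P.irr (hu (k, j))
    obtain ⟨i, hi⟩ := KK_ne (π := π) k (lt2 N π k (T (pp z y φ u k j)))
    exact Set.disjoint_left.1 hdis (P.mem_T (hav k j) hi) (P.mem_T (hav k (j + 1)) (hj ▸ hi))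
  · rw [Finset.disjoint_left]
    intro i h0 h1
    have hdis : Disjoint (T (pp z y φ u 0 j)) (T (pp z y φ u 1 j)) := by
      refine dj_prod P.irr (by rw [dist_comm]; exact P.zy) (hu (0, j)) (hd 0 1 j) ?_
      have := hd 0 1 (j + 3)
      rwa [pt_add3] at this
    exact Set.disjoint_left.1 hdis (P.mem_T (hav 0 j) h0) (P.mem_T (hav 1 j) h1)
  · have h2 : lt2 N π k (T (pp z y φ u k j)) = 2 := hj.1
    have h3 : lt2 N π k (T (pp z y φ u k (j + 3))) = 3 := hj.2
    have k2 := P.mem_Ls (hav k j)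
    have k3 := P.mem_Ls (hav k (j + 3))
    rw [h2] at k2
    rw [h3] at k3
    have s2 := Lt_col P.irr k2
    have s3 := Lt_col P.irr k3
    have hpal := (P.ck k).pal
    have hXX : ctr z y k ∈ XX U := by
      refine P.irr.mem_XX (y := pp z y φ u k j) (by rw [dist_comm]; exact dist_pt _ _)
        (i := cn N π k 0) ?_ ?_
      · rw [hpal]; simp
      · exact P.irr.sub _ (s2 (by simp [S5.H767.col]))
    have h5 := anti_two P.irr hXX (hu (k, j)) (Lc_add3 hu k j)
    have h6 : T (ctr z y k) \ (T (pt (ctr z y k) (φ + u + (j.val : ℝ))) ∪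
        T (pt (ctr z y k) (φ + u + (j.val : ℝ) + 3))) = ∅ := by
      rw [sdiff_eq_empty, hpal]
      have e3 : pp z y φ u k (j + 3) = pt (ctr z y k) (φ + u + (j.val : ℝ) + 3) := pt_add3 _ _ _ _
      rw [e3] at s3
      rintro i (rfl | rfl | rfl | rfl)
      · exact Or.inl (s2 (by simp [S5.H767.col]))
      · exact Or.inl (s2 (by simp [S5.H767.col]))
      · exact Or.inr (s3 (by simp [S5.H767.col]))
      · exact Or.inr (s3 (by simp [S5.H767.col]))
    have h5 : 2 ≤ (T (ctr z y k) \ (T (pt (ctr z y k) (φ + u + (j.val : ℝ))) ∪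
        T (pt (ctr z y k) (φ + u + (j.val : ℝ) + 3)))).ncard := h5
    rw [h6, ncard_empty] at h5
    omega

omit P in
/-- the rotation -/
theorem rot_eq (h : Col) : h ∘ rt (Fin 2) = rot h := rfl

omit P in
open Classical in
/-- the slots whose points have the palettes of their centres -/
def tau (T : ℂ → Set (Fin 6)) (z y : ℂ) (φ u : ℝ) (s : Fin 2 × Fin 6) : Bool :=
  decide (T (pp z y φ u s.1 s.2) = T (ctr z y s.1))

omit P in
theorem tau_true {u : ℝ} {k : Fin 2} {j : Fin 6} :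
    tau T z y φ u (k, j) = true ↔ T (pp z y φ u k j) = T (ctr z y k) := by
  unfold tau; exact decide_eq_true_iff

omit P in
theorem tau_false {u : ℝ} {k : Fin 2} {j : Fin 6} :
    tau T z y φ u (k, j) = false ↔ T (pp z y φ u k j) ≠ T (ctr z y k) := by
  unfold tau; exact decide_eq_false_iff_not

/-- limit columns are legal and available -/
theorem lim {u : ℝ} {h : Col} (hh : h ∈ LC (XP T z y N π φ) u ∪ RC (XP T z y N π φ) u) :
    Leg π h ∧ ∀ k j, u ∈ XP T z y N π φ (k, j) (h (k, j)) := by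
  rcases hh with hh | hh
  · exact ⟨P.sw.leg_of_LC hh, fun k j => P.sw.av_of_LC hh (k, j)⟩
  · exact ⟨P.sw.leg_of_RC hh, fun k j => P.sw.av_of_RC hh (k, j)⟩

/-- **Contradiction from a class function**, given the local theorems `hev` and `hsp`. -/
theorem false_of' (hev : ∀ u ∈ Ioo (0 : ℝ) 1, ∀ h ∈ LC (XP T z y N π φ) u ∪ RC (XP T z y N π φ) u,
      ∀ h' ∈ LC (XP T z y N π φ) u ∪ RC (XP T z y N π φ) u, Ev π ty E (tau T z y φ u) h h')
    (hsp : ∀ h ∈ LC (XP T z y N π φ) 0, ∀ h' ∈ RC (XP T z y N π φ) 0,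
      Sp π ty E (tau T z y φ 0) h h')
    {σ : Type*} (lab : Col → σ) (hEv : ∀ τ h h', Ev π ty E τ h h' → lab h = lab h')
    (hSp : ∀ τ h h', Sp π ty E τ h h' → lab h' ≠ lab (rot h)) : False := by
  have w := P.sw (φ := φ)
  obtain ⟨h, hh⟩ := w.LC_ne 0
  obtain ⟨h', hh'⟩ := w.RC_ne 0
  have h1 := w.turn (σ := rt (Fin 2)) (fun s l u => Xl_per s l u)
    (R := fun g g' => lab g = lab g') (fun _ _ _ h1 h2 => h1.trans h2) 0
    (fun u hu g hg g' hg' => hEv _ _ _ (hev u (by simpa using hu) g hg g' hg')) h hh h' hh'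
  exact hSp _ _ _ (hsp h hh h' hh') h1

end Pr

end Vale.Agent.P032.H747
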