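import Vale.Agent.P032.H747.L1B
import Vale.Agent.P032.S5.H827.Edge
import Vale.Agent.P032.S5.H585.Exc

/-!
# P032: the regular pairs of a point connect its colours

`one_pin` : a point with three colours is pinned for at most one pair (harmless centres, `Irr` only).
`harm_pair` : at a harmless point only its pair and the complementary pair can be irregular.
`reg_or` : in the frame `DF`, at a point which is not a two-pair point and sees no apex pair of a
two-pair point, two colours are regular, or both are regular with a third colour of the point.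
-/

open Set Filter Topology Metric

noncomputable section

namespace Vale.Agent.P032.H747

open Vale.Agent.P032.S5 Vale.Agent.P032.S5.Tab Vale.Agent.P032.Six Vale.Agent.P032.Carr

variable {U : Fin 6 → Set ℂ} {T : ℂ → Set (Fin 6)} {f : ℂ → Set (Fin 6)} {Z : Set ℂ} {c v : ℂ}
  {R δ₀ : ℝ} {x y z : ℂ} {i j k : Fin 6}

/-- a point with at most three colours is pinned for at most one pair -/
theorem one_pin (h : Irr U T) {z z' : ℂ} {A A' : Set (Fin 6)} (hz : Six.Harm T z A)
    (hz' : Six.Harm T z' A') (hxz : dist x z = 1) (hxz' : dist x z' = 1) (h3 : (T x).ncard ≤ 3)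
    (hij : i ≠ j) (hjk : j ≠ k) (hi : i ∈ T x) (hj : j ∈ T x) (hk : k ∈ T x)
    (hT : T x ⊆ {i, j, k}) (hC : T z \ A = {i, j}) (hC' : T z' \ A' = {i, k}) : False := by
  have hne : z ≠ z' := by
    rintro rfl
    have h0 := hz.unique hz'
    have h1 : j ∈ ({i, k} : Set (Fin 6)) := by
      rw [← hC', h0, hC]; exact mem_insert_of_mem _ rfl
    rcases h1 with h1 | h1
    · exact hij h1.symm
    · exact hjk h1
  have e1 := hz.cd3 h hxz h3 (by rw [hC]; exact insert_subset hi (singleton_subset_iff.2 hj))
  have e2 := hz'.cd3 h hxz' h3 (by rw [hC']; exact insert_subset hi (singleton_subset_iff.2 hk))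
  have key : T x ⊆ {i} := by
    refine Carr.isolated h hi ?_
    filter_upwards [e1, e2, h.nhd x, two_circles hne hxz hxz'] with w h1 h2 h4 h5 hwx hiw
    intro m hm
    by_contra hmi
    have hmi : m ≠ i := hmi
    have h6 : T w = T x := by
      rcases hT (h4 hm) with h7 | h7 | h7
      · exact absurd h7 hmi
      · exact (h1 (by
          rw [hC, ← h7]
          exact insert_subset hiw (singleton_subset_iff.2 hm))).2
      · have h7 : m = k := h7
        exact (h2 (by
          rw [hC', ← h7]
          exact insert_subset hiw (singleton_subset_iff.2 hm))).2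
    refine hwx (h5 ?_ ?_)
    · exact (h1 (by
        rw [hC, h6]
        exact insert_subset hi (singleton_subset_iff.2 hj))).1
    · exact (h2 (by
        rw [hC', h6]
        exact insert_subset hi (singleton_subset_iff.2 hk))).1
  exact hij (show j = i from key hj).symm

/-- the centre of an irregular pair -/
theorem irr_centre (h : DF U T) (F : ChF T f)
    (hV : ∀ V a b m n, DPt T V a b m n → dist V x = 1 → ¬ T V \ f V ⊆ T x)
    (hi : i ∈ T x) (hj : j ∈ T x) (hij : i ≠ j) (hno : ¬ Rg2 T f i j x) :
    Dgl T x i j ∨ ∃ z A, Six.Harm T z A ∧ dist x z = 1 ∧ T z \ A = {i, j} := by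
  by_contra hcon
  push Not at hcon
  refine hno ⟨hij, hi, hj, hcon.1, fun z hz h4 hC => ?_⟩
  rcases h.harm_or h4 with ⟨A, hA⟩ | ⟨a, b, m, n, hD⟩
  · have h1 := F.harm z A hA
    rw [h1] at hC
    exact hcon.2 z A hA (by rw [dist_comm]; exact hz) hC
  · refine hV z a b m n hD hz ?_
    rw [hC]
    rintro l (rfl | rfl)
    exacts [hi, hj]

/-- at a harmless point only the two pairs of the point can be irregular -/
theorem harm_pair (h : DF U T) (F : ChF T f) {A : Set (Fin 6)} (hA : Six.Harm T x A)
    (hV : ∀ V a b m n, DPt T V a b m n → dist V x = 1 → ¬ T V \ f V ⊆ T x)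
    (hi : i ∈ T x) (hj : j ∈ T x) (hij : i ≠ j) (hno : ¬ Rg2 T f i j x) :
    A = {i, j} ∨ T x \ A = {i, j} := by
  rcases irr_centre h F hV hi hj hij hno with (hd | ⟨m, n, hd⟩) | ⟨z, B, hB, hxz, hC⟩
  · exact Or.inl (hA.unique hd).symm
  · exact (not_harm_of_dpt hA hd).elim
  · rcases hB.unit_pair h.irr (fun z h4 s hs hne => h.mn z h4 s hs hne) hA hxz (by
      rw [hC]; rintro l (rfl | rfl); exacts [hi, hj]) with h1 | ⟨h1, -⟩
    · left; rw [h1, hC]
    · right; rw [← h1, hC]

/-- **the regular pairs connect the colours of a point** -/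
theorem reg_or (h : DF U T) (F : ChF T f) (hx2 : ∀ a b m n, ¬ DPt T x a b m n)
    (hV : ∀ V a b m n, DPt T V a b m n → dist V x = 1 → ¬ T V \ f V ⊆ T x)
    (hi : i ∈ T x) (hj : j ∈ T x) (hij : i ≠ j) :
    Rg2 T f i j x ∨ ∃ k ∈ T x, Rg2 T f i k x ∧ Rg2 T f k j x := by
  by_cases hno : Rg2 T f i j x
  · exact Or.inl hno
  right
  by_cases h4 : 4 ≤ (T x).ncard
  · -- harmless
    obtain ⟨A, hA⟩ : ∃ A, Six.Harm T x A := by
      rcases h.harm_or h4 with hA | ⟨a, b, m, n, hD⟩
      · exact hA
      · exact absurd hD (hx2 a b m n)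
    have hcard : (T x).ncard = 4 := hA.card
    -- a third colour
    obtain ⟨k, hk, hki, hkj⟩ : ∃ k ∈ T x, k ≠ i ∧ k ≠ j := by
      by_contra hcon
      push Not at hcon
      have h1 : T x ⊆ {i, j} := fun k hk => by
        by_cases hki : k = i
        · exact Or.inl hki
        · exact Or.inr (hcon k hk hki)
      have h2 := Set.ncard_le_ncard h1 (Set.toFinite _)
      rw [hcard, Set.ncard_pair hij] at h2
      omega
    have hP := harm_pair h F hA hV hi hj hij hno
    refine ⟨k, hk, ?_, ?_⟩
    · by_contra hno'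
      have hP' := harm_pair h F hA hV hi hk hki.symm hno'
      rcases hP with hP | hP <;> rcases hP' with hP' | hP'
      · have : k ∈ ({i, j} : Set (Fin 6)) := by rw [← hP, hP']; simp
        rcases this with h5 | h5
        exacts [hki h5, hkj h5]
      · have : i ∈ T x \ A := by rw [hP']; simp
        exact this.2 (by rw [hP]; simp)
      · have : i ∈ T x \ A := by rw [hP]; simp
        exact this.2 (by rw [hP']; simp)
      · have : k ∈ ({i, j} : Set (Fin 6)) := by rw [← hP, hP']; simp
        rcases this with h5 | h5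
        exacts [hki h5, hkj h5]
    · by_contra hno'
      have hP' := harm_pair h F hA hV hk hj hkj hno'
      rcases hP with hP | hP <;> rcases hP' with hP' | hP'
      · have : k ∈ ({i, j} : Set (Fin 6)) := by rw [← hP, hP']; simp
        rcases this with h5 | h5
        exacts [hki h5, hkj h5]
      · have : j ∈ T x \ A := by rw [hP']; simp
        exact this.2 (by rw [hP]; simp)
      · have : j ∈ T x \ A := by rw [hP]; simp
        exact this.2 (by rw [hP']; simp)
      · have : k ∈ ({i, j} : Set (Fin 6)) := by rw [← hP, hP']; simp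
        rcases this with h5 | h5
        exacts [hki h5, hkj h5]
  · push Not at h4
    have h3 : (T x).ncard ≤ 3 := by omega
    have hnd : ∀ a b, ¬ Dgl T x a b := fun a b hd => by
      have := hd.card
      omega
    have hcen : ∀ {a b : Fin 6}, a ∈ T x → b ∈ T x → a ≠ b → ¬ Rg2 T f a b x →
        ∃ z A, Six.Harm T z A ∧ dist x z = 1 ∧ T z \ A = {a, b} := fun ha hb hab hn =>
      (irr_centre h F hV ha hb hab hn).resolve_left (hnd _ _)
    obtain ⟨z, A, hA, hxz, hC⟩ := hcen hi hj hij hno
    obtain ⟨k, hkz, hTx⟩ := hA.third hxz h3 (by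
      rw [hC]; rintro l (rfl | rfl); exacts [hi, hj])
    rw [hC] at hTx
    have hk : k ∈ T x := by rw [hTx]; simp
    have hki : k ≠ i := by
      rintro rfl
      have : k ∈ T z \ A := by rw [hC]; simp
      exact hkz this.1
    have hkj : k ≠ j := by
      rintro rfl
      have : k ∈ T z \ A := by rw [hC]; simp
      exact hkz this.1
    have hT1 : T x ⊆ {i, j, k} := by
      rw [hTx]
      intro m hm
      simp only [mem_insert_iff, mem_singleton_iff] at hm ⊢
      tauto
    have hT2 : T x ⊆ {j, i, k} := by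
      rw [hTx]
      intro m hm
      simp only [mem_insert_iff, mem_singleton_iff] at hm ⊢
      tauto
    refine ⟨k, hk, ?_, ?_⟩
    · by_contra hno'
      obtain ⟨z', A', hA', hxz', hC'⟩ := hcen hi hk hki.symm hno'
      exact one_pin h.irr hA hA' hxz hxz' h3 hij hkj.symm hi hj hk hT1 hC hC'
    · by_contra hno'
      obtain ⟨z', A', hA', hxz', hC'⟩ := hcen hj hk hkj.symm fun h' => hno' h'.symm
      exact one_pin h.irr hA hA' hxz hxz' h3 hij.symm hki.symm hj hi hk hT2
        (by rw [hC, Set.pair_comm]) hC'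

/-- **agreement, or two agreements through a third colour** -/
theorem agree_or (D : DSt U T Z f c R δ₀) (hx : dist x c ≤ R - 1)
    (hx2 : ∀ a b m n, ¬ DPt T x a b m n)
    (hV : ∀ V a b m n, DPt T V a b m n → dist V x = 1 → ¬ T V \ f V ⊆ T x)
    (hi : i ∈ T x) (hj : j ∈ T x) (hij : i ≠ j) :
    (∀ d, lamT T Z f δ₀ i x j d = lamT T Z f δ₀ j x i d) ∨ ∃ k ∈ T x, k ≠ i ∧ k ≠ j ∧
      (∀ d, lamT T Z f δ₀ i x k d = lamT T Z f δ₀ k x i d) ∧
        ∀ d, lamT T Z f δ₀ k x j d = lamT T Z f δ₀ j x k d := by
  rcases reg_or D.df D.ch hx2 hV hi hj hij with h | ⟨k, hk, h1, h2⟩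
  · exact Or.inl (h.agree D hx)
  · exact Or.inr ⟨k, hk, h1.ne.symm, h2.ne, h1.agree D hx, h2.agree D hx⟩

end Vale.Agent.P032.H747
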