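import Vale.Agent.P032.H747.Star
import Vale.Agent.P032.H747.Reg4
import Vale.Agent.P032.H961.QI

/-!
# P032: no D-star pair in the world of quasi-full points

If the invisible points of `QIW T Inv` are never harmless (`Inv := fun _ _ => False` for instance), no
two-pair point is at distance one from a harmless point; hence `NoStar T`, the form `Up` for all
harmless points, and `SepH T`.
-/

open Set Filter Topology Metric

noncomputable section

namespace Vale.Agent.P032.H747

open Vale.Agent.P032.Six Vale.Agent.P032.H961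

variable {U : Fin 6 → Set ℂ} {T : ℂ → Set (Fin 6)} {Inv : ℂ → ℂ → Prop}

/-- a harmless point is not at distance one from a two-pair point -/
theorem not_dpt_near (W : QIW T Inv)
    (hI : ∀ V y A, Inv V y → Six.Harm T y A → False) {z x : ℂ} {A : Set (Fin 6)}
    (hz : Six.Harm T z A) (hx : dist x z = 1) (a b c d : Fin 6) : ¬ DPt T x a b c d := by
  intro hD
  obtain ⟨a', b', m, n, e, f, V1, V2, hQ⟩ := W.qf hD
  have h4 : 4 ≤ (T z).ncard := hz.card.ge
  rcases hQ.ord z (by rw [dist_comm]; exact hx) h4 with rfl | rfl | h1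
  · obtain ⟨g, h2 | h2⟩ := hQ.lk1
    · exact not_harm_of_dpt hz h2
    · exact not_harm_of_dpt hz h2
  · obtain ⟨g, h2 | h2⟩ := hQ.lk2
    · exact not_harm_of_dpt hz h2
    · exact not_harm_of_dpt hz h2
  · exact hI x z A h1 hz

/-- **no D-star pair** -/
theorem noStar_QI (h : DF U T) (W : QIW T Inv)
    (hI : ∀ V y A, Inv V y → Six.Harm T y A → False) : NoStar T :=
  h.noStar_of fun _ _ _ hz hx => not_dpt_near W hI hz hx

/-- unit pairs of harmless points -/
theorem up_QI (h : DF U T) (W : QIW T Inv)
    (hI : ∀ V y A, Inv V y → Six.Harm T y A → False) {z x : ℂ} {A B : Set (Fin 6)}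
    (hz : Six.Harm T z A) (hx : Six.Harm T x B) (hxz : dist x z = 1) (hC : T z \ A ⊆ T x) :
    B = T z \ A :=
  h.up_of (fun _ _ _ hz hx => not_dpt_near W hI hz hx) hz hx hxz hC

/-- the apex pair of a harmless centre in the palette of a four coloured point of its circle is the
diagonal pair of this point -/
theorem sepH_QI (h : DF U T) (W : QIW T Inv)
    (hI : ∀ V y A, Inv V y → Six.Harm T y A → False) : SepH T := by
  intro z A x hz hxz h4 i j hC hi hj
  rcases h.harm_or h4 with ⟨B, hB⟩ | ⟨a, b, c, d, hD⟩
  · have h1 := up_QI h W hI hz hB hxz (by rw [hC]; rintro l (rfl | rfl); exacts [hi, hj])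
    left
    rw [← hC, ← h1]
    exact hB
  · exact absurd hD (not_dpt_near W hI hz hxz a b c d)

/-- the form without invisible points -/
theorem noStar_NoInv (h : DF U T) (W : QIW T fun _ _ => False) : NoStar T :=
  noStar_QI h W fun _ _ _ h1 _ => h1

end Vale.Agent.P032.H747
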