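import Vale.Agent.P032.S5.H11.Tab
import Vale.Agent.P032.S5.Clopen

/-!
# P032, X.L1: labels over a pair `p`, abstract form

`E` : a compact set (the part of the border set of `p` where the two colours agree).  `r x` : the
state at `x` on the triples which meet `p`.  `Bs x S` : base of type `S ⊇ p` at `x`, with admissible
state `st x S` which extends `r x`.  Two bases of different types on a connected part of `E` : the
complement of one type has value zero in the state of the other (`near`).  Then there is a locally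
constant label on `E` with the value `Phi p S (st x S)` at every base; at the points of a finite set
`W` it is the forced value of a base of its component, or the class value of `r x`.
-/

open Set Filter Topology Metric

noncomputable section

namespace Vale.Agent.P032.H747

open Vale.Agent.P032.S5 Vale.Agent.P032.S5.Tab

variable {E : Set ℂ} {p : Finset (Fin 6)} {r : ℂ → Ch} {st : ℂ → Finset (Fin 6) → Ch}
  {Bs : ℂ → Finset (Fin 6) → Prop}

/-- chains are determined by the values at the triples -/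
def nrm (z : Ch) : Ch := fun s => if s.card = 3 then z s else 0

theorem nrm_eq {z : Ch} {s : Finset (Fin 6)} (hs : s.card = 3) : nrm z s = z s := if_pos hs

theorem nrm_congr {z z' : Ch} (h : ∀ s : Finset (Fin 6), s.card = 3 → z s = z' s) :
    nrm z = nrm z' := by
  funext s
  unfold nrm
  by_cases hs : s.card = 3
  · rw [if_pos hs, if_pos hs, h s hs]
  · rw [if_neg hs, if_neg hs]

/-- two cycles which agree on the triples meeting `p` differ by a multiple of `bd pᶜ` -/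
theorem cyc_diff {z z' : Ch} (hp : p.card = 2) (hz : IsCyc z) (hz' : IsCyc z')
    (h : ∀ s : Finset (Fin 6), s.card = 3 → ¬ Disjoint s p → z s = z' s)
    {s t : Finset (Fin 6)} (hs : s.card = 3) (ht : t.card = 3) (hsp : Disjoint s p)
    (htp : Disjoint t p) : z s + z' s = z t + z' t := by
  by_cases hst : s = t
  · rw [hst]
  have hpc : pᶜ.card = 4 := by rw [Finset.card_compl, hp]; rfl
  have hs' : s ⊆ pᶜ := fun a ha => Finset.mem_compl.2 (Finset.disjoint_left.1 hsp ha)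
  have ht' : t ⊆ pᶜ := fun a ha => Finset.mem_compl.2 (Finset.disjoint_left.1 htp ha)
  have hu : (s ∪ t).card ≤ 4 := hpc ▸ Finset.card_le_card (Finset.union_subset hs' ht')
  have hi := Finset.card_union_add_card_inter s t
  have hlt : (s ∩ t).card < 3 := by
    rw [← hs]
    refine Finset.card_lt_card ⟨Finset.inter_subset_left, fun hh => hst ?_⟩
    exact Finset.eq_of_subset_of_card_le (fun a ha => (Finset.mem_inter.1 (hh ha)).2)
      (by rw [hs, ht])
  have hc : (s ∩ t).card = 2 := by omega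
  have huc : s ∪ t = pᶜ := Finset.eq_of_subset_of_card_le (Finset.union_subset hs' ht')
    (by rw [hpc]; omega)
  have hsd : (s \ t).card = 1 := by
    have := Finset.card_sdiff_add_card_inter s t
    omega
  have htd : (t \ s).card = 1 := by
    have := Finset.card_sdiff_add_card_inter t s
    rw [Finset.inter_comm] at this
    omega
  obtain ⟨a, ha⟩ := Finset.card_eq_one.1 hsd
  obtain ⟨b, hb⟩ := Finset.card_eq_one.1 htd
  have ha' : a ∈ s \ t := by rw [ha]; simp
  have hb' : b ∈ t \ s := by rw [hb]; simp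
  rw [Finset.mem_sdiff] at ha' hb'
  have hab : a ≠ b := fun hh => hb'.2 (hh ▸ ha'.1)
  have e1 := hz (s ∩ t) hc
  have e2 := hz' (s ∩ t) hc
  have e3 : ∑ l ∈ (s ∩ t)ᶜ, (z (insert l (s ∩ t)) + z' (insert l (s ∩ t))) = 0 := by
    rw [Finset.sum_add_distrib, e1, e2, add_zero]
  have e4 : ∑ l ∈ ({a, b} : Finset (Fin 6)), (z (insert l (s ∩ t)) + z' (insert l (s ∩ t))) =
      ∑ l ∈ (s ∩ t)ᶜ, (z (insert l (s ∩ t)) + z' (insert l (s ∩ t))) := by
    refine Finset.sum_subset ?_ fun l hl hlab => ?_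
    · intro l hl
      simp only [Finset.mem_insert, Finset.mem_singleton] at hl
      rw [Finset.mem_compl, Finset.mem_inter, not_and]
      rcases hl with rfl | rfl
      · exact fun _ => ha'.2
      · exact fun hh => absurd hh hb'.2
    · rw [Finset.mem_compl] at hl
      have hlp : l ∈ p := by
        by_contra hlp
        have h1 : l ∈ s ∪ t := by rw [huc]; exact Finset.mem_compl.2 hlp
        have h2 : l = a ∨ l = b := by
          rcases Finset.mem_union.1 h1 with h3 | h3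
          · by_cases h4 : l ∈ t
            · exact absurd (Finset.mem_inter.2 ⟨h3, h4⟩) hl
            · left
              have h5 : l ∈ s \ t := Finset.mem_sdiff.2 ⟨h3, h4⟩
              rw [ha] at h5
              simpa using h5
          · by_cases h4 : l ∈ s
            · exact absurd (Finset.mem_inter.2 ⟨h4, h3⟩) hl
            · right
              have h5 : l ∈ t \ s := Finset.mem_sdiff.2 ⟨h3, h4⟩
              rw [hb] at h5
              simpa using h5
        exact hlab (by simpa using h2)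
      rw [h _ (by rw [Finset.card_insert_of_notMem hl, hc])
        (Finset.not_disjoint_iff.2 ⟨l, Finset.mem_insert_self _ _, hlp⟩), CharTwo.add_self_eq_zero]
  rw [e3, Finset.sum_pair hab] at e4
  have hia : insert a (s ∩ t) = s := by
    refine Finset.eq_of_subset_of_card_le (Finset.insert_subset ha'.1 Finset.inter_subset_left) ?_
    rw [Finset.card_insert_of_notMem (fun hh => ha'.2 (Finset.mem_inter.1 hh).2), hc, hs]
  have hib : insert b (s ∩ t) = t := by
    refine Finset.eq_of_subset_of_card_le (Finset.insert_subset hb'.1 Finset.inter_subset_right) ?_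
    rw [Finset.card_insert_of_notMem (fun hh => hb'.2 (Finset.mem_inter.1 hh).1), hc, ht]
  rw [hia, hib] at e4
  revert e4
  generalize z s = x1
  generalize z t = x2
  generalize z' s = x3
  generalize z' t = x4
  revert x1 x2 x3 x4
  decide

/-- **Rule** : two admissible states which agree on the triples meeting `p` -/
theorem adm_rule {S S' : Finset (Fin 6)} {z z' : Ch} (hp : p.card = 2) (hS : S.card = 3)
    (hS' : S'.card = 3) (hpS : p ⊆ S) (hpS' : p ⊆ S') (hz : Adm S z) (hz' : Adm S' z')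
    (h : ∀ s : Finset (Fin 6), s.card = 3 → ¬ Disjoint s p → z s = z' s) :
    (S' = S → ∀ s : Finset (Fin 6), s.card = 3 → z' s = z s) ∧
      (S' ≠ S → z S'ᶜ = 0 ∨ z' Sᶜ = 0 → ∀ s : Finset (Fin 6), s.card = 3 →
        z' s = z s + bd pᶜ s) := by
  have hc : ∀ S : Finset (Fin 6), S.card = 3 → Sᶜ.card = 3 := fun S hS => by
    rw [Finset.card_compl, hS]; rfl
  have hd : ∀ S : Finset (Fin 6), p ⊆ S → Disjoint Sᶜ p := fun S hS =>
    Finset.disjoint_left.2 fun a ha hap => Finset.mem_compl.1 ha (hS hap)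
  refine ⟨fun hSS s hs => ?_, fun hne hor s hs => ?_⟩
  · by_cases hsp : Disjoint s p
    · have h1 := cyc_diff hp hz.1 hz'.1 h hs (hc S hS) hsp (hd S hpS)
      have h2 := hz.2.1
      have h3 := hz'.2.1
      rw [hSS] at h3
      rw [h2, h3] at h1
      revert h1
      generalize z s = a
      generalize z' s = b
      revert a b
      decide
    · exact (h s hs hsp).symm
  · by_cases hsp : Disjoint s p
    · have hb : bd pᶜ s = 1 := by
        unfold bd
        rw [if_pos]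
        intro a ha
        exact Finset.mem_compl.2 (Finset.disjoint_left.1 hsp ha)
      rw [hb]
      have key : ∀ a b : ZMod 2, a + b = 1 → b = a + 1 := by decide
      refine key _ _ ?_
      rcases hor with h0 | h0
      · rw [cyc_diff hp hz.1 hz'.1 h hs (hc S' hS') hsp (hd S' hpS'), h0, hz'.2.1, zero_add]
      · rw [cyc_diff hp hz.1 hz'.1 h hs (hc S hS) hsp (hd S hpS), h0, hz.2.1, add_zero]
    · have hb : bd pᶜ s = 0 := by
        unfold bd
        rw [if_neg]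
        intro hh
        exact hsp (Finset.disjoint_left.2 fun a ha => Finset.mem_compl.1 (hh ha))
      rw [hb, add_zero]
      exact (h s hs hsp).symm

/-- the hypotheses of the labels -/
structure LabI (E : Set ℂ) (p : Finset (Fin 6)) (r : ℂ → Ch) (st : ℂ → Finset (Fin 6) → Ch)
    (Bs : ℂ → Finset (Fin 6) → Prop) : Prop where
  cpt : IsCompact E
  pc : p.card = 2
  loc : ∀ x ∈ E, ∀ᶠ y in 𝓝 x, y ∈ E → ∀ s : Finset (Fin 6), s.card = 3 → ¬ Disjoint s p →
    r y s = r x s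
  cl : ∀ x ∈ E, ∀ S, ¬ Bs x S → ∀ᶠ y in 𝓝 x, y ∈ E → ¬ Bs y S
  card : ∀ x ∈ E, ∀ S, Bs x S → S.card = 3
  sub : ∀ x ∈ E, ∀ S, Bs x S → p ⊆ S
  adm : ∀ x ∈ E, ∀ S, Bs x S → Adm S (st x S)
  res : ∀ x ∈ E, ∀ S, Bs x S → ∀ s : Finset (Fin 6), s.card = 3 → ¬ Disjoint s p →
    st x S s = r x s
  near : ∀ Q : Set ℂ, Q ⊆ E → IsPreconnected Q → ∀ x ∈ Q, ∀ y ∈ Q, ∀ S S', Bs x S → Bs y S' →
    S ≠ S' → st x S S'ᶜ = 0 ∨ st y S' Sᶜ = 0

namespace LabI

variable (h : LabI E p r st Bs)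
include h

/-- the restricted state is constant on connected sets -/
theorem r_const {Q : Set ℂ} (hQE : Q ⊆ E) (hQ : IsPreconnected Q) {x y : ℂ} (hx : x ∈ Q)
    (hy : y ∈ Q) {s : Finset (Fin 6)} (hs : s.card = 3) (hsp : ¬ Disjoint s p) :
    r x s = r y s := by
  let _ : TopologicalSpace (ZMod 2) := ⊥
  have : DiscreteTopology (ZMod 2) := ⟨rfl⟩
  refine hQ.constant (f := fun z => r z s) (fun z hz => ?_) hx hy
  refine tendsto_const_nhds.congr' ?_
  filter_upwards [mem_nhdsWithin_of_mem_nhds (h.loc z (hQE hz)), self_mem_nhdsWithin] with w hw hwQ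
  exact (hw (hQE hwQ) s hs hsp).symm

theorem st_eq {Q : Set ℂ} (hQE : Q ⊆ E) (hQ : IsPreconnected Q) {x y : ℂ} (hx : x ∈ Q)
    (hy : y ∈ Q) {S S' : Finset (Fin 6)} (hS : Bs x S) (hS' : Bs y S')
    (s : Finset (Fin 6)) (hs : s.card = 3) (hsp : ¬ Disjoint s p) : st x S s = st y S' s := by
  rw [h.res x (hQE hx) S hS s hs hsp, h.res y (hQE hy) S' hS' s hs hsp,
    h.r_const hQE hQ hx hy hs hsp]

/-- two bases on a connected part of `E`, one of them forced: same type and same state -/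
theorem uniq {Q : Set ℂ} (hQE : Q ⊆ E) (hQ : IsPreconnected Q) {x y : ℂ} (hx : x ∈ Q)
    (hy : y ∈ Q) {S S' : Finset (Fin 6)} (hS : Bs x S) (hS' : Bs y S')
    (hF : Forced p S (nrm (st x S))) : S' = S ∧ nrm (st y S') = nrm (st x S) := by
  have c1 := h.card x (hQE hx) S hS
  have c2 := h.card y (hQE hy) S' hS'
  have a1 := h.adm x (hQE hx) S hS
  have a2 := h.adm y (hQE hy) S' hS'
  have hrule := adm_rule h.pc c1 c2 (h.sub x (hQE hx) S hS) (h.sub y (hQE hy) S' hS') a1 a2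
    (h.st_eq hQE hQ hx hy hS hS')
  have hSS : S' = S := forced_unique h.pc c1 c2 (h.sub x (hQE hx) S hS)
    (h.sub y (hQE hy) S' hS') ((forced_congr fun s hs => nrm_eq hs).1 hF) a2
    fun hne s hs => hrule.2 hne (h.near Q hQE hQ x hx y hy S S' hS hS' hne.symm) s hs
  exact ⟨hSS, nrm_congr fun s hs => hrule.1 hSS s hs⟩

/-- local constancy of the state at a base -/
theorem st_loc {x : ℂ} (hx : x ∈ E) {S : Finset (Fin 6)} (hS : Bs x S) :
    ∀ᶠ y in 𝓝 x, y ∈ E → Bs y S → nrm (st y S) = nrm (st x S) := by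
  filter_upwards [h.loc x hx] with y hy hyE hyS
  refine nrm_congr fun s hs => ?_
  refine (adm_rule h.pc (h.card x hx S hS) (h.card x hx S hS) (h.sub x hx S hS) (h.sub x hx S hS)
    (h.adm x hx S hS) (h.adm y hyE S hyS) fun s hs hsp => ?_).1 rfl s hs
  rw [h.res x hx S hS s hs hsp, h.res y hyE S hyS s hs hsp, hy hyE s hs hsp]

/-- **Labels.** -/
theorem exists_label {W : Set ℂ} (hW : W.Finite) :
    ∃ Ψ : ℂ → ZMod 2, (∀ x ∈ E, ∀ᶠ y in 𝓝 x, y ∈ E → Ψ y = Ψ x) ∧
      (∀ x ∈ E, ∀ S, Bs x S → Ψ x = Phi p S (st x S)) ∧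
      ∀ x ∈ W, x ∈ E → (∃ Q ⊆ E, IsPreconnected Q ∧ x ∈ Q ∧ ∃ y ∈ Q, ∃ S, Bs y S ∧
          Forced p S (st y S) ∧ Ψ x = chi p S (st y S)) ∨
        ((∀ Q ⊆ E, IsPreconnected Q → x ∈ Q → ∀ y ∈ Q, ∀ S, Bs y S → ¬ Forced p S (st y S)) ∧
          Ψ x = psi p (r x)) := by
  classical
  have hp := h.pc
  have : CompactSpace E := isCompact_iff_compactSpace.1 h.cpt
  have hWf : Finite W := hW
  -- the closed sets: bases of given type and state, and the points of `W` without forced base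
  let X : (Finset (Fin 6) × Ch) ⊕ W → Set E := fun s => match s with
    | Sum.inl s => {x | Bs (x : ℂ) s.1 ∧ nrm (st (x : ℂ) s.1) = s.2}
    | Sum.inr w => {x | (x : ℂ) = w ∧ ∀ Q ⊆ E, IsPreconnected Q → (x : ℂ) ∈ Q → ∀ y ∈ Q, ∀ S,
        Bs y S → ¬ Forced p S (st y S)}
  have hXc : ∀ s, IsClosed (X s) := by
    rintro (⟨S, z⟩ | w)
    · rw [← isOpen_compl_iff, isOpen_iff_mem_nhds]
      rintro ⟨y, hy⟩ hyX
      rw [mem_compl_iff] at hyX
      simp only [X, mem_ofPred_eq] at hyX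
      by_cases hBy : Bs y S
      · have hzy : nrm (st y S) ≠ z := fun h => hyX ⟨hBy, h⟩
        have h2 : ∀ᶠ x : E in 𝓝 ⟨y, hy⟩, (x : ℂ) ∈ E → Bs (x : ℂ) S →
            nrm (st (x : ℂ) S) = nrm (st y S) :=
          Tendsto.eventually (p := fun x => x ∈ E → Bs x S → nrm (st x S) = nrm (st y S))
            (continuous_subtype_val.tendsto (⟨y, hy⟩ : E)) (h.st_loc hy hBy)
        filter_upwards [h2] with x hx2 hx
        exact hzy (by rw [← hx2 x.2 hx.1, hx.2])
      · have h1 : ∀ᶠ x : E in 𝓝 ⟨y, hy⟩, (x : ℂ) ∈ E → ¬ Bs (x : ℂ) S :=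
          Tendsto.eventually (p := fun x => x ∈ E → ¬ Bs x S)
            (continuous_subtype_val.tendsto (⟨y, hy⟩ : E)) (h.cl y hy S hBy)
        filter_upwards [h1] with x hx1 hx
        exact hx1 x.2 hx.1
    · refine Set.Subsingleton.isClosed ?_
      rintro x ⟨hx, -⟩ y ⟨hy, -⟩
      exact Subtype.ext (hx.trans hy.symm)
  let J : Set ((Finset (Fin 6) × Ch) ⊕ W) := {s | ∃ S z, s = Sum.inl (S, z) ∧ Forced p S z}
  have hcomp : ∀ x : E, Subtype.val '' connectedComponent x ⊆ E ∧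
      IsPreconnected (Subtype.val '' connectedComponent x : Set ℂ) ∧
      (x : ℂ) ∈ (Subtype.val '' connectedComponent x : Set ℂ) := fun x =>
    ⟨by rintro _ ⟨w, -, rfl⟩; exact w.2,
      isPreconnected_connectedComponent.image _ continuous_subtype_val.continuousOn,
      ⟨x, mem_connectedComponent, rfl⟩⟩
  have hJ : ∀ s ∈ J, ∀ t, t ≠ s → ∀ x ∈ X s, ∀ y ∈ X t, y ∉ connectedComponent x := by
    rintro _ ⟨S, z, rfl, hF⟩ t hne x hxX y hyX hconn
    obtain ⟨hSx, hzx⟩ : Bs (x : ℂ) S ∧ nrm (st (x : ℂ) S) = z := hxX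
    obtain ⟨hQE, hQ, hxQ⟩ := hcomp x
    have hyQ : (y : ℂ) ∈ (Subtype.val '' connectedComponent x : Set ℂ) := ⟨y, hconn, rfl⟩
    rw [← hzx] at hF
    rcases t with ⟨S₂, z₂⟩ | w
    · obtain ⟨hSy, hzy⟩ : Bs (y : ℂ) S₂ ∧ nrm (st (y : ℂ) S₂) = z₂ := hyX
      obtain ⟨e1, e2⟩ := h.uniq hQE hQ hxQ hyQ hSx hSy hF
      apply hne
      rw [← hzy, ← hzx, e2, e1]
    · obtain ⟨-, hno⟩ := hyX
      exact hno _ hQE hQ hyQ x hxQ S hSx ((forced_congr fun s hs => nrm_eq hs).1 hF)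
  have hfin : Finite ((Finset (Fin 6) × Ch) ⊕ W) := inferInstance
  obtain ⟨N, hNc, hNX, hNd, hNN, hNe⟩ := exists_clopen_family X hXc J hJ
  -- the label on `E`
  let val : (Finset (Fin 6) × Ch) ⊕ W → ZMod 2 := fun s => match s with
    | Sum.inl s => chi p s.1 s.2
    | Sum.inr _ => 0
  let L : E → ZMod 2 := fun x => if hh : ∃ s, s ∈ J ∧ x ∈ N s then
    val hh.choose else psi p (r (x : ℂ))
  have hL1 : ∀ x : E, ∀ s ∈ J, x ∈ N s → L x = val s := by
    intro x s hs hxs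
    have hh : ∃ s, s ∈ J ∧ x ∈ N s := ⟨s, hs, hxs⟩
    have he : hh.choose = s := by
      by_contra hcon
      exact Set.disjoint_left.1 (hNN _ _ hcon) hh.choose_spec.2 hxs
    simp only [L, dif_pos hh, he]
  have hL2 : ∀ x : E, (∀ s ∈ J, x ∉ N s) → L x = psi p (r (x : ℂ)) := by
    intro x hx
    have hh : ¬ ∃ s, s ∈ J ∧ x ∈ N s := by
      rintro ⟨s, hs, hxs⟩; exact hx s hs hxs
    simp only [L, dif_neg hh]
  have hLloc : ∀ x : E, ∀ᶠ y in 𝓝 x, L y = L x := by
    intro x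
    by_cases hh : ∃ s, s ∈ J ∧ x ∈ N s
    · obtain ⟨s, hs, hxs⟩ := hh
      filter_upwards [(hNc s).isOpen.mem_nhds hxs] with y hy
      rw [hL1 y s hs hy, hL1 x s hs hxs]
    · push Not at hh
      have h1 : ∀ᶠ y in 𝓝 x, ∀ s, y ∉ N s ∨ s ∉ J := by
        rw [eventually_all]
        intro s
        by_cases hs : s ∈ J
        · filter_upwards [(hNc s).compl.isOpen.mem_nhds (hh s hs)] with y hy
          exact Or.inl hy
        · exact Eventually.of_forall fun y => Or.inr hs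
      have h2 : ∀ᶠ y : E in 𝓝 x, (y : ℂ) ∈ E → ∀ s : Finset (Fin 6), s.card = 3 →
          ¬ Disjoint s p → r (y : ℂ) s = r (x : ℂ) s :=
        Tendsto.eventually (p := fun y => y ∈ E → ∀ s : Finset (Fin 6), s.card = 3 →
          ¬ Disjoint s p → r y s = r (x : ℂ) s)
          (continuous_subtype_val.tendsto x) (h.loc x x.2)
      filter_upwards [h1, h2] with y hy1 hy2
      rw [hL2 x hh, hL2 y (fun s hs hys => (hy1 s).elim (fun h => h hys) (fun h => h hs))]
      exact psi_congr hp fun s hs hd => hy2 y.2 s hs hd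
  refine ⟨fun x => if hx : x ∈ E then L ⟨x, hx⟩ else 0, fun x hx => ?_, fun x hx S hS => ?_,
    fun x hxW hx => ?_⟩
  · have h1 := hLloc ⟨x, hx⟩
    rw [nhds_subtype_eq_comap, eventually_comap] at h1
    filter_upwards [h1] with y hy hyE
    rw [dif_pos hx, dif_pos hyE]
    exact hy ⟨y, hyE⟩ rfl
  · show (if hx : x ∈ E then L ⟨x, hx⟩ else 0) = _
    rw [dif_pos hx]
    have hxX : (⟨x, hx⟩ : E) ∈ X (Sum.inl (S, nrm (st x S))) := ⟨hS, rfl⟩
    by_cases hF : Forced p S (st x S)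
    · have hJx : (Sum.inl (S, nrm (st x S)) : (Finset (Fin 6) × Ch) ⊕ W) ∈ J :=
        ⟨S, _, rfl, (forced_congr fun s hs => nrm_eq hs).2 hF⟩
      rw [hL1 _ _ hJx (hNX _ hJx hxX)]
      unfold Phi
      rw [if_pos hF]
      exact chi_congr fun s hs => nrm_eq hs
    · rw [hL2 _ fun s hs hxs => ?_]
      · unfold Phi
        rw [if_neg hF]
        exact psi_congr hp fun s hs hd => (h.res x hx S hS s hs hd).symm
      · have hne : (Sum.inl (S, nrm (st x S)) : (Finset (Fin 6) × Ch) ⊕ W) ≠ s := by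
          rintro rfl
          obtain ⟨S', z', he, hF'⟩ := hs
          rw [Sum.inl.injEq, Prod.mk.injEq] at he
          apply hF
          rw [← forced_congr fun s hs => nrm_eq hs, he.2, he.1]
          exact hF'
        exact Set.disjoint_left.1 (hNd s hs _ hne) hxs hxX
  · show (∃ Q ⊆ E, IsPreconnected Q ∧ x ∈ Q ∧ ∃ y ∈ Q, ∃ S, Bs y S ∧ Forced p S (st y S) ∧
      (if hx : x ∈ E then L ⟨x, hx⟩ else 0) = chi p S (st y S)) ∨ (_ ∧
        (if hx : x ∈ E then L ⟨x, hx⟩ else 0) = psi p (r x))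
    rw [dif_pos hx]
    by_cases hno : ∀ Q ⊆ E, IsPreconnected Q → x ∈ Q → ∀ y ∈ Q, ∀ S, Bs y S →
        ¬ Forced p S (st y S)
    · right
      refine ⟨hno, ?_⟩
      have hxX : (⟨x, hx⟩ : E) ∈ X (Sum.inr ⟨x, hxW⟩) := ⟨rfl, hno⟩
      refine hL2 _ fun s hs hxs => ?_
      have hne : (Sum.inr ⟨x, hxW⟩ : (Finset (Fin 6) × Ch) ⊕ W) ≠ s := by
        rintro rfl
        obtain ⟨S', z', he, -⟩ := hs
        cases he
      exact Set.disjoint_left.1 (hNd s hs _ hne) hxs hxX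
    · left
      push Not at hno
      obtain ⟨Q, hQE, hQ, hxQ, y, hyQ, S, hS, hF⟩ := hno
      refine ⟨Q, hQE, hQ, hxQ, y, hyQ, S, hS, hF, ?_⟩
      have hyE := hQE hyQ
      -- the label is constant on `Q`
      have hyX : (⟨y, hyE⟩ : E) ∈ X (Sum.inl (S, nrm (st y S))) := ⟨hS, rfl⟩
      have hJy : (Sum.inl (S, nrm (st y S)) : (Finset (Fin 6) × Ch) ⊕ W) ∈ J :=
        ⟨S, _, rfl, (forced_congr fun s hs => nrm_eq hs).2 hF⟩
      have hyN := hNX _ hJy hyX
      have hQ' : IsPreconnected (Subtype.val ⁻¹' Q : Set E) := by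
        refine (Topology.IsInducing.subtypeVal.isPreconnected_image).1 ?_
        rwa [Subtype.image_preimage_coe, inter_eq_right.2 hQE]
      have hxN : (⟨x, hx⟩ : E) ∈ N (Sum.inl (S, nrm (st y S))) :=
        hQ'.subset_isClopen (hNc _) ⟨⟨y, hyE⟩, hyQ, hyN⟩ hxQ
      rw [hL1 _ _ hJy hxN]
      exact chi_congr fun s hs => nrm_eq hs

/-- **Labels with given tables** `ps` (class labels) and `ch` (forced labels). -/
theorem exists_label3 {W : Set ℂ} (hW : W.Finite) {ps : Ch → ZMod 2}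
    {ch : Finset (Fin 6) → Ch → ZMod 2}
    (hps : ∀ z z' : Ch, (∀ s : Finset (Fin 6), s.card = 3 → ¬ Disjoint s p → z s = z' s) →
      ps z = ps z')
    (hch : ∀ S z z', (∀ s : Finset (Fin 6), s.card = 3 → z s = z' s) → ch S z = ch S z') :
    ∃ Ψ : ℂ → ZMod 2, (∀ x ∈ E, ∀ᶠ y in 𝓝 x, y ∈ E → Ψ y = Ψ x) ∧
      (∀ x ∈ E, ∀ S, Bs x S → Ψ x = if Forced p S (st x S) then ch S (st x S) else ps (st x S)) ∧
      ∀ x ∈ W, x ∈ E → (∃ Q ⊆ E, IsPreconnected Q ∧ x ∈ Q ∧ ∃ y ∈ Q, ∃ S, Bs y S ∧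
          Forced p S (st y S) ∧ Ψ x = ch S (st y S)) ∨
        ((∀ Q ⊆ E, IsPreconnected Q → x ∈ Q → ∀ y ∈ Q, ∀ S, Bs y S → ¬ Forced p S (st y S)) ∧
          Ψ x = ps (r x)) := by
  classical
  have : CompactSpace E := isCompact_iff_compactSpace.1 h.cpt
  have hWf : Finite W := hW
  -- the closed sets: bases of given type and state, and the points of `W` without forced base
  let X : (Finset (Fin 6) × Ch) ⊕ W → Set E := fun s => match s with
    | Sum.inl s => {x | Bs (x : ℂ) s.1 ∧ nrm (st (x : ℂ) s.1) = s.2}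
    | Sum.inr w => {x | (x : ℂ) = w ∧ ∀ Q ⊆ E, IsPreconnected Q → (x : ℂ) ∈ Q → ∀ y ∈ Q, ∀ S,
        Bs y S → ¬ Forced p S (st y S)}
  have hXc : ∀ s, IsClosed (X s) := by
    rintro (⟨S, z⟩ | w)
    · rw [← isOpen_compl_iff, isOpen_iff_mem_nhds]
      rintro ⟨y, hy⟩ hyX
      rw [mem_compl_iff] at hyX
      simp only [X, mem_ofPred_eq] at hyX
      by_cases hBy : Bs y S
      · have hzy : nrm (st y S) ≠ z := fun h => hyX ⟨hBy, h⟩
        have h2 : ∀ᶠ x : E in 𝓝 ⟨y, hy⟩, (x : ℂ) ∈ E → Bs (x : ℂ) S →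
            nrm (st (x : ℂ) S) = nrm (st y S) :=
          Tendsto.eventually (p := fun x => x ∈ E → Bs x S → nrm (st x S) = nrm (st y S))
            (continuous_subtype_val.tendsto (⟨y, hy⟩ : E)) (h.st_loc hy hBy)
        filter_upwards [h2] with x hx2 hx
        exact hzy (by rw [← hx2 x.2 hx.1, hx.2])
      · have h1 : ∀ᶠ x : E in 𝓝 ⟨y, hy⟩, (x : ℂ) ∈ E → ¬ Bs (x : ℂ) S :=
          Tendsto.eventually (p := fun x => x ∈ E → ¬ Bs x S)
            (continuous_subtype_val.tendsto (⟨y, hy⟩ : E)) (h.cl y hy S hBy)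
        filter_upwards [h1] with x hx1 hx
        exact hx1 x.2 hx.1
    · refine Set.Subsingleton.isClosed ?_
      rintro x ⟨hx, -⟩ y ⟨hy, -⟩
      exact Subtype.ext (hx.trans hy.symm)
  let J : Set ((Finset (Fin 6) × Ch) ⊕ W) := {s | ∃ S z, s = Sum.inl (S, z) ∧ Forced p S z}
  have hcomp : ∀ x : E, Subtype.val '' connectedComponent x ⊆ E ∧
      IsPreconnected (Subtype.val '' connectedComponent x : Set ℂ) ∧
      (x : ℂ) ∈ (Subtype.val '' connectedComponent x : Set ℂ) := fun x =>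
    ⟨by rintro _ ⟨w, -, rfl⟩; exact w.2,
      isPreconnected_connectedComponent.image _ continuous_subtype_val.continuousOn,
      ⟨x, mem_connectedComponent, rfl⟩⟩
  have hJ : ∀ s ∈ J, ∀ t, t ≠ s → ∀ x ∈ X s, ∀ y ∈ X t, y ∉ connectedComponent x := by
    rintro _ ⟨S, z, rfl, hF⟩ t hne x hxX y hyX hconn
    obtain ⟨hSx, hzx⟩ : Bs (x : ℂ) S ∧ nrm (st (x : ℂ) S) = z := hxX
    obtain ⟨hQE, hQ, hxQ⟩ := hcomp x
    have hyQ : (y : ℂ) ∈ (Subtype.val '' connectedComponent x : Set ℂ) := ⟨y, hconn, rfl⟩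
    rw [← hzx] at hF
    rcases t with ⟨S₂, z₂⟩ | w
    · obtain ⟨hSy, hzy⟩ : Bs (y : ℂ) S₂ ∧ nrm (st (y : ℂ) S₂) = z₂ := hyX
      obtain ⟨e1, e2⟩ := h.uniq hQE hQ hxQ hyQ hSx hSy hF
      apply hne
      rw [← hzy, ← hzx, e2, e1]
    · obtain ⟨-, hno⟩ := hyX
      exact hno _ hQE hQ hyQ x hxQ S hSx ((forced_congr fun s hs => nrm_eq hs).1 hF)
  have hfin : Finite ((Finset (Fin 6) × Ch) ⊕ W) := inferInstance
  obtain ⟨N, hNc, hNX, hNd, hNN, hNe⟩ := exists_clopen_family X hXc J hJ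
  -- the label on `E`
  let val : (Finset (Fin 6) × Ch) ⊕ W → ZMod 2 := fun s => match s with
    | Sum.inl s => ch s.1 s.2
    | Sum.inr _ => 0
  let L : E → ZMod 2 := fun x => if hh : ∃ s, s ∈ J ∧ x ∈ N s then
    val hh.choose else ps (r (x : ℂ))
  have hL1 : ∀ x : E, ∀ s ∈ J, x ∈ N s → L x = val s := by
    intro x s hs hxs
    have hh : ∃ s, s ∈ J ∧ x ∈ N s := ⟨s, hs, hxs⟩
    have he : hh.choose = s := by
      by_contra hcon
      exact Set.disjoint_left.1 (hNN _ _ hcon) hh.choose_spec.2 hxs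
    simp only [L, dif_pos hh, he]
  have hL2 : ∀ x : E, (∀ s ∈ J, x ∉ N s) → L x = ps (r (x : ℂ)) := by
    intro x hx
    have hh : ¬ ∃ s, s ∈ J ∧ x ∈ N s := by
      rintro ⟨s, hs, hxs⟩; exact hx s hs hxs
    simp only [L, dif_neg hh]
  have hLloc : ∀ x : E, ∀ᶠ y in 𝓝 x, L y = L x := by
    intro x
    by_cases hh : ∃ s, s ∈ J ∧ x ∈ N s
    · obtain ⟨s, hs, hxs⟩ := hh
      filter_upwards [(hNc s).isOpen.mem_nhds hxs] with y hy
      rw [hL1 y s hs hy, hL1 x s hs hxs]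
    · push Not at hh
      have h1 : ∀ᶠ y in 𝓝 x, ∀ s, y ∉ N s ∨ s ∉ J := by
        rw [eventually_all]
        intro s
        by_cases hs : s ∈ J
        · filter_upwards [(hNc s).compl.isOpen.mem_nhds (hh s hs)] with y hy
          exact Or.inl hy
        · exact Eventually.of_forall fun y => Or.inr hs
      have h2 : ∀ᶠ y : E in 𝓝 x, (y : ℂ) ∈ E → ∀ s : Finset (Fin 6), s.card = 3 →
          ¬ Disjoint s p → r (y : ℂ) s = r (x : ℂ) s :=
        Tendsto.eventually (p := fun y => y ∈ E → ∀ s : Finset (Fin 6), s.card = 3 →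
          ¬ Disjoint s p → r y s = r (x : ℂ) s)
          (continuous_subtype_val.tendsto x) (h.loc x x.2)
      filter_upwards [h1, h2] with y hy1 hy2
      rw [hL2 x hh, hL2 y (fun s hs hys => (hy1 s).elim (fun h => h hys) (fun h => h hs))]
      exact hps _ _ fun s hs hd => hy2 y.2 s hs hd
  refine ⟨fun x => if hx : x ∈ E then L ⟨x, hx⟩ else 0, fun x hx => ?_, fun x hx S hS => ?_,
    fun x hxW hx => ?_⟩
  · have h1 := hLloc ⟨x, hx⟩
    rw [nhds_subtype_eq_comap, eventually_comap] at h1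
    filter_upwards [h1] with y hy hyE
    rw [dif_pos hx, dif_pos hyE]
    exact hy ⟨y, hyE⟩ rfl
  · show (if hx : x ∈ E then L ⟨x, hx⟩ else 0) = _
    rw [dif_pos hx]
    have hxX : (⟨x, hx⟩ : E) ∈ X (Sum.inl (S, nrm (st x S))) := ⟨hS, rfl⟩
    by_cases hF : Forced p S (st x S)
    · have hJx : (Sum.inl (S, nrm (st x S)) : (Finset (Fin 6) × Ch) ⊕ W) ∈ J :=
        ⟨S, _, rfl, (forced_congr fun s hs => nrm_eq hs).2 hF⟩
      rw [hL1 _ _ hJx (hNX _ hJx hxX)]
      rw [if_pos hF]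
      exact hch _ _ _ fun s hs => nrm_eq hs
    · rw [hL2 _ fun s hs hxs => ?_]
      · rw [if_neg hF]
        exact hps _ _ fun s hs hd => (h.res x hx S hS s hs hd).symm
      · have hne : (Sum.inl (S, nrm (st x S)) : (Finset (Fin 6) × Ch) ⊕ W) ≠ s := by
          rintro rfl
          obtain ⟨S', z', he, hF'⟩ := hs
          rw [Sum.inl.injEq, Prod.mk.injEq] at he
          apply hF
          rw [← forced_congr fun s hs => nrm_eq hs, he.2, he.1]
          exact hF'
        exact Set.disjoint_left.1 (hNd s hs _ hne) hxs hxX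
  · show (∃ Q ⊆ E, IsPreconnected Q ∧ x ∈ Q ∧ ∃ y ∈ Q, ∃ S, Bs y S ∧ Forced p S (st y S) ∧
      (if hx : x ∈ E then L ⟨x, hx⟩ else 0) = ch S (st y S)) ∨ (_ ∧
        (if hx : x ∈ E then L ⟨x, hx⟩ else 0) = ps (r x))
    rw [dif_pos hx]
    by_cases hno : ∀ Q ⊆ E, IsPreconnected Q → x ∈ Q → ∀ y ∈ Q, ∀ S, Bs y S →
        ¬ Forced p S (st y S)
    · right
      refine ⟨hno, ?_⟩
      have hxX : (⟨x, hx⟩ : E) ∈ X (Sum.inr ⟨x, hxW⟩) := ⟨rfl, hno⟩
      refine hL2 _ fun s hs hxs => ?_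
      have hne : (Sum.inr ⟨x, hxW⟩ : (Finset (Fin 6) × Ch) ⊕ W) ≠ s := by
        rintro rfl
        obtain ⟨S', z', he, -⟩ := hs
        cases he
      exact Set.disjoint_left.1 (hNd s hs _ hne) hxs hxX
    · left
      push Not at hno
      obtain ⟨Q, hQE, hQ, hxQ, y, hyQ, S, hS, hF⟩ := hno
      refine ⟨Q, hQE, hQ, hxQ, y, hyQ, S, hS, hF, ?_⟩
      have hyE := hQE hyQ
      -- the label is constant on `Q`
      have hyX : (⟨y, hyE⟩ : E) ∈ X (Sum.inl (S, nrm (st y S))) := ⟨hS, rfl⟩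
      have hJy : (Sum.inl (S, nrm (st y S)) : (Finset (Fin 6) × Ch) ⊕ W) ∈ J :=
        ⟨S, _, rfl, (forced_congr fun s hs => nrm_eq hs).2 hF⟩
      have hyN := hNX _ hJy hyX
      have hQ' : IsPreconnected (Subtype.val ⁻¹' Q : Set E) := by
        refine (Topology.IsInducing.subtypeVal.isPreconnected_image).1 ?_
        rwa [Subtype.image_preimage_coe, inter_eq_right.2 hQE]
      have hxN : (⟨x, hx⟩ : E) ∈ N (Sum.inl (S, nrm (st y S))) :=
        hQ'.subset_isClopen (hNc _) ⟨⟨y, hyE⟩, hyQ, hyN⟩ hxQ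
      rw [hL1 _ _ hJy hxN]
      exact hch _ _ _ fun s hs => nrm_eq hs

/-- **Labels with points of a second kind.** `Pt` : a closed set of points of `E` whose components
carry no base; there the label is a given function `g` of the state. -/
theorem exists_label2 {Pt : ℂ → Prop} (hcl : ∀ x ∈ E, ¬ Pt x → ∀ᶠ y in 𝓝 x, y ∈ E → ¬ Pt y)
    (hno : ∀ Q : Set ℂ, Q ⊆ E → IsPreconnected Q → ∀ x ∈ Q, Pt x → ∀ y ∈ Q, ∀ S, ¬ Bs y S)
    {g : Ch → ZMod 2}
    (hg : ∀ z z' : Ch, (∀ s : Finset (Fin 6), s.card = 3 → ¬ Disjoint s p → z s = z' s) →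
      g z = g z') :
    ∃ Ψ : ℂ → ZMod 2, (∀ x ∈ E, ∀ᶠ y in 𝓝 x, y ∈ E → Ψ y = Ψ x) ∧
      (∀ x ∈ E, ∀ S, Bs x S → Ψ x = Phi p S (st x S)) ∧ ∀ x ∈ E, Pt x → Ψ x = g (r x) := by
  classical
  have hp := h.pc
  have : CompactSpace E := isCompact_iff_compactSpace.1 h.cpt
  let X : (Finset (Fin 6) × Ch) ⊕ Unit → Set E := fun s => match s with
    | Sum.inl s => {x | Bs (x : ℂ) s.1 ∧ nrm (st (x : ℂ) s.1) = s.2}
    | Sum.inr _ => {x | Pt (x : ℂ)}
  have hXc : ∀ s, IsClosed (X s) := by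
    rintro (⟨S, z⟩ | w)
    · rw [← isOpen_compl_iff, isOpen_iff_mem_nhds]
      rintro ⟨y, hy⟩ hyX
      rw [mem_compl_iff] at hyX
      simp only [X, mem_ofPred_eq] at hyX
      by_cases hBy : Bs y S
      · have hzy : nrm (st y S) ≠ z := fun h => hyX ⟨hBy, h⟩
        have h2 : ∀ᶠ x : E in 𝓝 ⟨y, hy⟩, (x : ℂ) ∈ E → Bs (x : ℂ) S →
            nrm (st (x : ℂ) S) = nrm (st y S) :=
          Tendsto.eventually (p := fun x => x ∈ E → Bs x S → nrm (st x S) = nrm (st y S))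
            (continuous_subtype_val.tendsto (⟨y, hy⟩ : E)) (h.st_loc hy hBy)
        filter_upwards [h2] with x hx2 hx
        exact hzy (by rw [← hx2 x.2 hx.1, hx.2])
      · have h1 : ∀ᶠ x : E in 𝓝 ⟨y, hy⟩, (x : ℂ) ∈ E → ¬ Bs (x : ℂ) S :=
          Tendsto.eventually (p := fun x => x ∈ E → ¬ Bs x S)
            (continuous_subtype_val.tendsto (⟨y, hy⟩ : E)) (h.cl y hy S hBy)
        filter_upwards [h1] with x hx1 hx
        exact hx1 x.2 hx.1
    · rw [← isOpen_compl_iff, isOpen_iff_mem_nhds]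
      rintro ⟨y, hy⟩ hyX
      have h1 : ∀ᶠ x : E in 𝓝 ⟨y, hy⟩, (x : ℂ) ∈ E → ¬ Pt (x : ℂ) :=
        Tendsto.eventually (p := fun x => x ∈ E → ¬ Pt x)
          (continuous_subtype_val.tendsto (⟨y, hy⟩ : E)) (hcl y hy hyX)
      filter_upwards [h1] with x hx1 hx
      exact hx1 x.2 hx
  let J : Set ((Finset (Fin 6) × Ch) ⊕ Unit) :=
    {s | (∃ S z, s = Sum.inl (S, z) ∧ Forced p S z) ∨ s = Sum.inr ()}
  have hcomp : ∀ x : E, Subtype.val '' connectedComponent x ⊆ E ∧
      IsPreconnected (Subtype.val '' connectedComponent x : Set ℂ) ∧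
      (x : ℂ) ∈ (Subtype.val '' connectedComponent x : Set ℂ) := fun x =>
    ⟨by rintro _ ⟨w, -, rfl⟩; exact w.2,
      isPreconnected_connectedComponent.image _ continuous_subtype_val.continuousOn,
      ⟨x, mem_connectedComponent, rfl⟩⟩
  have hJ : ∀ s ∈ J, ∀ t, t ≠ s → ∀ x ∈ X s, ∀ y ∈ X t, y ∉ connectedComponent x := by
    rintro _ (⟨S, z, rfl, hF⟩ | rfl) t hne x hxX y hyX hconn
    · obtain ⟨hSx, hzx⟩ : Bs (x : ℂ) S ∧ nrm (st (x : ℂ) S) = z := hxX
      obtain ⟨hQE, hQ, hxQ⟩ := hcomp x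
      have hyQ : (y : ℂ) ∈ (Subtype.val '' connectedComponent x : Set ℂ) := ⟨y, hconn, rfl⟩
      rw [← hzx] at hF
      rcases t with ⟨S₂, z₂⟩ | w
      · obtain ⟨hSy, hzy⟩ : Bs (y : ℂ) S₂ ∧ nrm (st (y : ℂ) S₂) = z₂ := hyX
        obtain ⟨e1, e2⟩ := h.uniq hQE hQ hxQ hyQ hSx hSy hF
        apply hne
        rw [← hzy, ← hzx, e2, e1]
      · exact hno _ hQE hQ y hyQ hyX x hxQ S hSx
    · obtain ⟨hQE, hQ, hxQ⟩ := hcomp x
      have hyQ : (y : ℂ) ∈ (Subtype.val '' connectedComponent x : Set ℂ) := ⟨y, hconn, rfl⟩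
      rcases t with ⟨S₂, z₂⟩ | w
      · obtain ⟨hSy, hzy⟩ : Bs (y : ℂ) S₂ ∧ nrm (st (y : ℂ) S₂) = z₂ := hyX
        exact hno _ hQE hQ x hxQ hxX y hyQ S₂ hSy
      · exact hne rfl
  have hfin : Finite ((Finset (Fin 6) × Ch) ⊕ Unit) := inferInstance
  obtain ⟨N, hNc, hNX, hNd, hNN, hNe⟩ := exists_clopen_family X hXc J hJ
  -- the label on `E`
  let val : (Finset (Fin 6) × Ch) ⊕ Unit → E → ZMod 2 := fun s x => match s with
    | Sum.inl s => chi p s.1 s.2
    | Sum.inr _ => g (r (x : ℂ))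
  let L : E → ZMod 2 := fun x => if hh : ∃ s, s ∈ J ∧ x ∈ N s then
    val hh.choose x else psi p (r (x : ℂ))
  have hL1 : ∀ x : E, ∀ s ∈ J, x ∈ N s → L x = val s x := by
    intro x s hs hxs
    have hh : ∃ s, s ∈ J ∧ x ∈ N s := ⟨s, hs, hxs⟩
    have he : hh.choose = s := by
      by_contra hcon
      exact Set.disjoint_left.1 (hNN _ _ hcon) hh.choose_spec.2 hxs
    simp only [L, dif_pos hh, he]
  have hL2 : ∀ x : E, (∀ s ∈ J, x ∉ N s) → L x = psi p (r (x : ℂ)) := by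
    intro x hx
    have hh : ¬ ∃ s, s ∈ J ∧ x ∈ N s := by
      rintro ⟨s, hs, hxs⟩; exact hx s hs hxs
    simp only [L, dif_neg hh]
  have hLloc : ∀ x : E, ∀ᶠ y in 𝓝 x, L y = L x := by
    intro x
    have h2 : ∀ᶠ y : E in 𝓝 x, (y : ℂ) ∈ E → ∀ s : Finset (Fin 6), s.card = 3 →
        ¬ Disjoint s p → r (y : ℂ) s = r (x : ℂ) s :=
      Tendsto.eventually (p := fun y => y ∈ E → ∀ s : Finset (Fin 6), s.card = 3 →
        ¬ Disjoint s p → r y s = r (x : ℂ) s)
        (continuous_subtype_val.tendsto x) (h.loc x x.2)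
    by_cases hh : ∃ s, s ∈ J ∧ x ∈ N s
    · obtain ⟨s, hs, hxs⟩ := hh
      filter_upwards [(hNc s).isOpen.mem_nhds hxs, h2] with y hy hy2
      rw [hL1 y s hs hy, hL1 x s hs hxs]
      rcases s with s | s
      · rfl
      · exact hg _ _ (hy2 y.2)
    · push Not at hh
      have h1 : ∀ᶠ y in 𝓝 x, ∀ s, y ∉ N s ∨ s ∉ J := by
        rw [eventually_all]
        intro s
        by_cases hs : s ∈ J
        · filter_upwards [(hNc s).compl.isOpen.mem_nhds (hh s hs)] with y hy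
          exact Or.inl hy
        · exact Eventually.of_forall fun y => Or.inr hs
      filter_upwards [h1, h2] with y hy1 hy2
      rw [hL2 x hh, hL2 y (fun s hs hys => (hy1 s).elim (fun h => h hys) (fun h => h hs))]
      exact psi_congr hp fun s hs hd => hy2 y.2 s hs hd
  refine ⟨fun x => if hx : x ∈ E then L ⟨x, hx⟩ else 0, fun x hx => ?_, fun x hx S hS => ?_,
    fun x hx hPt => ?_⟩
  · have h1 := hLloc ⟨x, hx⟩
    rw [nhds_subtype_eq_comap, eventually_comap] at h1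
    filter_upwards [h1] with y hy hyE
    rw [dif_pos hx, dif_pos hyE]
    exact hy ⟨y, hyE⟩ rfl
  · show (if hx : x ∈ E then L ⟨x, hx⟩ else 0) = _
    rw [dif_pos hx]
    have hxX : (⟨x, hx⟩ : E) ∈ X (Sum.inl (S, nrm (st x S))) := ⟨hS, rfl⟩
    by_cases hF : Forced p S (st x S)
    · have hJx : (Sum.inl (S, nrm (st x S)) : (Finset (Fin 6) × Ch) ⊕ Unit) ∈ J :=
        Or.inl ⟨S, _, rfl, (forced_congr fun s hs => nrm_eq hs).2 hF⟩
      rw [hL1 _ _ hJx (hNX _ hJx hxX)]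
      unfold Phi
      rw [if_pos hF]
      exact chi_congr fun s hs => nrm_eq hs
    · rw [hL2 _ fun s hs hxs => ?_]
      · unfold Phi
        rw [if_neg hF]
        exact psi_congr hp fun s hs hd => (h.res x hx S hS s hs hd).symm
      · have hne : (Sum.inl (S, nrm (st x S)) : (Finset (Fin 6) × Ch) ⊕ Unit) ≠ s := by
          rintro rfl
          rcases hs with ⟨S', z', he, hF'⟩ | he
          · rw [Sum.inl.injEq, Prod.mk.injEq] at he
            apply hF
            rw [← forced_congr fun s hs => nrm_eq hs, he.2, he.1]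
            exact hF'
          · cases he
        exact Set.disjoint_left.1 (hNd s hs _ hne) hxs hxX
  · show (if hx : x ∈ E then L ⟨x, hx⟩ else 0) = _
    rw [dif_pos hx]
    have hxX : (⟨x, hx⟩ : E) ∈ X (Sum.inr ()) := hPt
    have hJx : (Sum.inr () : (Finset (Fin 6) × Ch) ⊕ Unit) ∈ J := Or.inr rfl
    exact hL1 _ _ hJx (hNX _ hJx hxX)

end LabI

end Vale.Agent.P032.H747
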