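import Vale.Agent.P032.H538.State2
import Vale.Agent.P032.H383.Loc
import Vale.Agent.P032.H747.L1A

/-!
# P032, X.L1: regular pairs of colours in the frame `DSt`

`Dgl T x i j` : `i j` is the pair of the harmless point `x` or a diagonal of the two-pair point `x`.
`Rg2 T f i j x` : `i`, `j` are colours of `x`, not diagonal, and no point with at least four colours
of the circle `S(x)` has the apex pair `i j`.  There the states of `i` and `j` agree (`Rg2.agree`).
Being regular is locally constant on the border set of `i j` (`reg_nhd`, `irr_nhd`).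
-/

open Set Filter Topology Metric

noncomputable section

namespace Vale.Agent.P032.H747

open Vale.Agent.P032.S5 Vale.Agent.P032.S5.Tab Vale.Agent.P032.Six Vale.Agent.P032.Carr

variable {U : Fin 6 → Set ℂ} {T : ℂ → Set (Fin 6)} {f : ℂ → Set (Fin 6)} {Z : Set ℂ} {c v : ℂ}
  {R δ₀ : ℝ} {x y z : ℂ} {i j k : Fin 6}

/-- diagonal pair at `x` -/
def Dgl (T : ℂ → Set (Fin 6)) (x : ℂ) (i j : Fin 6) : Prop :=
  Six.Harm T x {i, j} ∨ ∃ m n, DPt T x i j m n

theorem Dgl.symm (h : Dgl T x i j) : Dgl T x j i := by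
  rcases h with h | ⟨m, n, h⟩
  · left; rwa [Set.pair_comm]
  · exact Or.inr ⟨m, n, h.swap12⟩

theorem Dgl.card (h : Dgl T x i j) : (T x).ncard = 4 := by
  rcases h with h | ⟨m, n, h⟩
  · exact h.card
  · exact h.ncard

/-- regular pair at `x` -/
structure Rg2 (T f : ℂ → Set (Fin 6)) (i j : Fin 6) (x : ℂ) : Prop where
  ne : i ≠ j
  hi : i ∈ T x
  hj : j ∈ T x
  dg : ¬ Dgl T x i j
  ap : ∀ z, dist z x = 1 → 4 ≤ (T z).ncard → T z \ f z ≠ {i, j}

theorem Rg2.symm (h : Rg2 T f i j x) : Rg2 T f j i x :=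
  ⟨h.ne.symm, h.hj, h.hi, fun hd => h.dg hd.symm, fun z h1 h2 h3 =>
    h.ap z h1 h2 (by rw [h3, Set.pair_comm])⟩

theorem _root_.Vale.Agent.P032.Six.DSt.card_ap (D : DSt U T Z f c R δ₀) (h4 : 4 ≤ (T z).ncard) :
    (T z \ f z).ncard = 2 := by
  obtain ⟨h1, h2, -⟩ := D.ch.circle D.df h4
  rw [Set.ncard_sdiff h2 (Set.toFinite _), h1, le_antisymm (D.df.le4 z) h4]

/-- an apex pair inside a pair is the pair -/
theorem ap_eq (D : DSt U T Z f c R δ₀) (h4 : 4 ≤ (T z).ncard) (hij : i ≠ j)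
    (hs : T z \ f z ⊆ {i, j}) : T z \ f z = {i, j} :=
  Set.eq_of_subset_of_ncard_le hs (by rw [D.card_ap h4, Set.ncard_pair hij]) (Set.toFinite _)

/-- no palette of the circle inside a regular pair -/
theorem Rg2.circ (h : Rg2 T f i j x) (D : DSt U T Z f c R δ₀) (hy : dist y x = 1) :
    ¬ T y ⊆ {i, j} := by
  intro hsub
  have hsub' : T y ⊆ T x := hsub.trans (by rintro m (rfl | rfl); exacts [h.hi, h.hj])
  by_cases h3 : (T x).ncard ≤ 3
  · exact D.df.irr.not_sub hy h3 hsub'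
  push Not at h3
  rcases D.df.harm_or h3 with ⟨A, hA⟩ | ⟨a, b, c', d, hD⟩
  · have h1 := (hA.h1 y hy hsub').trans hsub
    have h2 : A = {i, j} := Set.eq_of_subset_of_ncard_le h1
      (by rw [hA.cardA, Set.ncard_pair h.ne]) (Set.toFinite _)
    exact h.dg (Or.inl (h2 ▸ hA))
  · obtain ⟨q, -, hq, hq2, hq3, -, -⟩ := D.df.irr.arc_of_sub hy hsub' univ_mem
    have hqx : T q ⊆ {i, j} := hq3.trans hsub
    have key : ∀ a b c' d : Fin 6, DPt T x a b c' d → T q = {a, b} → False := by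
      intro a b c' d hD hq1
      have h1 : ({a, b} : Set (Fin 6)) = {i, j} := Set.eq_of_subset_of_ncard_le
        (by rw [← hq1]; exact hqx) (by rw [Set.ncard_pair hD.ab, Set.ncard_pair h.ne])
        (Set.toFinite _)
      rcases Set.pair_eq_pair_iff.1 h1 with ⟨rfl, rfl⟩ | ⟨rfl, rfl⟩
      · exact h.dg (Or.inr ⟨c', d, hD⟩)
      · exact h.dg (Or.inr ⟨c', d, hD.swap12⟩)
    rcases D.df.irr.twoPairs hD q hq hq2 (hq3.trans hsub') with h1 | h1
    · exact key a b c' d hD h1
    · exact key c' d a b hD.swap h1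

/-- **Agreement** at a regular pair -/
theorem Rg2.agree (h : Rg2 T f i j x) (D : DSt U T Z f c R δ₀) (hx : dist x c ≤ R - 1) (d : Fin 6) :
    lamT T Z f δ₀ i x j d = lamT T Z f δ₀ j x i d :=
  D.agree hx (fun _ hy => h.circ D hy) (fun z hz h4 hsub => h.ap z hz h4 (ap_eq D h4 h.ne hsub)) d

/-! ### regularity is locally constant on the border set -/

/-- near every point the four coloured points are harmless with the same pair, or the point -/
theorem dgl_nhd (D : DSt U T Z f c R δ₀) (x : ℂ) : ∀ᶠ y in 𝓝 x, Dgl T y i j → Dgl T x i j := by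
  by_cases h4 : 4 ≤ (T x).ncard
  swap
  · filter_upwards [D.df.irr.nhd x] with y hy hd
    exact absurd (hd.card.ge.trans (Set.ncard_le_ncard hy (Set.toFinite _))) h4
  rcases D.df.harm_or h4 with ⟨A, hA⟩ | ⟨a, b, c', d, hD⟩
  · have hev : ∀ᶠ w in 𝓝 x, ¬ ∃ a b c d, DPt T w a b c d := by
      rw [← not_frequently]
      intro hcl
      obtain ⟨a, b, c', d, hD⟩ := D.df.dpt_of_closure (mem_closure_iff_frequently.2 hcl)
      exact not_harm_of_dpt hA hD
    filter_upwards [hA.nhd D.df.irr, hev] with y h1 h2 hd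
    rcases hd with hd | ⟨m, n, hd⟩
    · left
      have := (h1 _ hd).2
      rw [this]
      exact hA
    · exact absurd ⟨_, _, _, _, hd⟩ h2
  · filter_upwards [D.df.isolated4 hD] with y h1 hd
    rw [← h1 hd.card.ge]
    exact hd

/-- the apex pairs of the circles are closed -/
theorem ap_nhd (D : DSt U T Z f c R δ₀) (hx : dist x c < R - 1)
    (hno : ∀ z, dist z x = 1 → 4 ≤ (T z).ncard → T z \ f z ≠ {i, j}) :
    ∀ᶠ y in 𝓝 x, ∀ z, dist z y = 1 → 4 ≤ (T z).ncard → T z \ f z ≠ {i, j} := by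
  by_contra hcon
  rw [not_eventually] at hcon
  have hcon2 : ∃ᶠ y in 𝓝 x, dist y c < R - 1 ∧ ∃ z, dist z y = 1 ∧ 4 ≤ (T z).ncard ∧
      T z \ f z = {i, j} := by
    refine (hcon.and_eventually ((isOpen_lt (continuous_id.dist continuous_const)
      continuous_const).mem_nhds hx)).mono fun y hy => ⟨hy.2, ?_⟩
    have h1 := hy.1
    push Not at h1
    exact h1
  obtain ⟨y, hy, hyP⟩ := exists_seq_forall_of_frequently hcon2
  choose hyc z hzy h4 hC using hyP
  have hzZ : ∀ n, z n ∈ Z := fun n => D.zs.mem (z n) (mem_closedBall.2 (by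
    have := dist_triangle (z n) (y n) c
    have h1 := hyc n
    rw [hzy n] at this
    linarith)) (h4 n)
  obtain ⟨z0, hz0, φ, hφ, hlim⟩ := D.zs.compact.tendsto_subseq hzZ
  have hylim : Tendsto (y ∘ φ) atTop (𝓝 x) := hy.comp hφ.tendsto_atTop
  have hd : dist z0 x = 1 := by
    have h1 : Tendsto (fun n => dist ((z ∘ φ) n) ((y ∘ φ) n)) atTop (𝓝 (dist z0 x)) :=
      hlim.dist hylim
    have h2 : (fun n => dist ((z ∘ φ) n) ((y ∘ φ) n)) = fun _ => 1 := by
      funext n; exact hzy (φ n)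
    rw [h2] at h1
    exact tendsto_nhds_unique h1 tendsto_const_nhds
  have hδ : ∀ᶠ w in 𝓝 z0, dist w z0 ≤ δ₀ := closedBall_mem_nhds z0 D.hm.pos
  obtain ⟨n, hn⟩ := (hlim.eventually hδ).exists
  obtain ⟨h5, h6⟩ := D.hm.const z0 hz0 _ (hzZ (φ n)) hn
  refine hno z0 hd (D.zs.four z0 hz0) ?_
  rw [← hC (φ n), h5, h6]

/-- regular pairs stay regular on the border set -/
theorem Rg2.nhd (h : Rg2 T f i j x) (D : DSt U T Z f c R δ₀) (hx : dist x c < R - 1) :
    ∀ᶠ y in 𝓝 x, i ∈ T y → j ∈ T y → Rg2 T f i j y := by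
  filter_upwards [dgl_nhd D x (i := i) (j := j), ap_nhd D hx h.ap] with y h1 h2 hi hj
  exact ⟨h.ne, hi, hj, fun hd => h.dg (h1 hd), h2⟩

/-- the hypothesis on unit pairs: if the apex pair of a harmless point of the circle of a point with
four colours lies in its palette then it is a diagonal pair -/
def SepH (T : ℂ → Set (Fin 6)) : Prop := ∀ z A x, Six.Harm T z A → dist x z = 1 →
  4 ≤ (T x).ncard → ∀ i j, T z \ A = {i, j} → i ∈ T x → j ∈ T x → Dgl T x i j

/-- the pair of the arc of a two-pair point -/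
theorem dpt_of_ap (D : DSt U T Z f c R δ₀) {a b c' d : Fin 6} (hD : DPt T z a b c' d)
    (hC : T z \ f z = {i, j}) : ∃ m n, DPt T z i j m n := by
  have key : ∀ a b c' d : Fin 6, DPt T z a b c' d → f z = {a, b} → ∃ m n, DPt T z i j m n := by
    intro a b c' d hD hf
    have h1 : T z \ f z = {c', d} := by
      rw [hD.pal, hf]
      ext m
      simp only [Set.mem_sdiff, mem_insert_iff, mem_singleton_iff]
      constructor
      · rintro ⟨h1, h2⟩; tauto
      · rintro (rfl | rfl)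
        · exact ⟨by tauto, by rintro (h | h); exacts [hD.ac h.symm, hD.bc h.symm]⟩
        · exact ⟨by tauto, by rintro (h | h); exacts [hD.ad h.symm, hD.bd h.symm]⟩
    rw [h1] at hC
    rcases Set.pair_eq_pair_iff.1 hC with ⟨rfl, rfl⟩ | ⟨rfl, rfl⟩
    · exact ⟨a, b, hD.swap⟩
    · exact ⟨a, b, hD.swap.swap12⟩
  rcases D.ch.two z a b c' d hD with hf | hf
  · exact key a b c' d hD hf
  · exact key c' d a b hD.swap hf

/-- irregular pairs stay irregular on the border set -/
theorem irr_nhd (D : DSt U T Z f c R δ₀) (hS : SepH T) (hx : dist x c < R - 1) (hij : i ≠ j)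
    (hi : i ∈ T x) (hj : j ∈ T x) (hno : ¬ Rg2 T f i j x) :
    ∀ᶠ y in 𝓝 x, i ∈ T y → j ∈ T y → ¬ Rg2 T f i j y := by
  have h1 : Dgl T x i j ∨ ∃ z, dist z x = 1 ∧ 4 ≤ (T z).ncard ∧ T z \ f z = {i, j} := by
    by_contra hcon
    push Not at hcon
    exact hno ⟨hij, hi, hj, hcon.1, hcon.2⟩
  by_cases hd : Dgl T x i j
  · rcases hd with hd | ⟨m, n, hd⟩
    · have hxZ : x ∈ Z := D.zs.mem x (mem_closedBall.2 (by linarith)) hd.card.ge
      obtain ⟨p, hp, hpJ⟩ := hd.arc
      have hpA : T p = {i, j} := hpJ.self_of_nhdsWithin hp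
      have hev : ∀ᶠ w in 𝓝 x, ¬ ∃ a b c d, DPt T w a b c d := by
        rw [← not_frequently]
        intro hcl
        obtain ⟨a, b, c', d, hD⟩ := D.df.dpt_of_closure (mem_closure_iff_frequently.2 hcl)
        exact not_harm_of_dpt hd hD
      filter_upwards [D.df.irr.no_layer hp, hd.nhd D.df.irr, hev] with y h2 h3 h4 hi' hj' hr
      have h5 : 4 ≤ (T y).ncard := h2 (by
        rw [hpA]; rintro m (rfl | rfl); exacts [hi', hj'])
      rcases D.df.harm_or h5 with ⟨A, hA⟩ | hD
      · refine hr.dg (Or.inl ?_)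
        rw [← (h3 A hA).2]
        exact hA
      · exact h4 hD
    · obtain ⟨p, hp⟩ := hd.arc1
      have hpA : T p = {i, j} := hp.mem
      filter_upwards [D.df.irr.no_layer hp.1, D.df.isolated4 hd] with y h2 h3 hi' hj' hr
      have h5 : 4 ≤ (T y).ncard := h2 (by
        rw [hpA]; rintro m (rfl | rfl); exacts [hi', hj'])
      have h6 := h3 h5
      rw [h6] at hr
      exact hr.dg (Or.inr ⟨m, n, hd⟩)
  · obtain ⟨z, hzx, h4, hC⟩ := h1.resolve_left hd
    have hxz : dist x z = 1 := by rw [dist_comm]; exact hzx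
    rcases D.df.harm_or h4 with ⟨A, hA⟩ | ⟨a, b, c', d, hD⟩
    · have hfA := D.ch.harm z A hA
      have hCA : T z \ A = {i, j} := by rw [← hfA]; exact hC
      have h3 : (T x).ncard ≤ 3 := by
        by_contra h3
        push Not at h3
        exact hd (hS z A x hA hxz h3 i j hCA hi hj)
      filter_upwards [hA.cd3 D.df.irr hxz h3 (by
        rw [hCA]; rintro m (rfl | rfl); exacts [hi, hj])] with y h5 hi' hj' hr
      have h6 := (h5 (by rw [hCA]; rintro m (rfl | rfl); exacts [hi', hj'])).1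
      exact hr.ap z (by rw [dist_comm]; exact h6) h4 hC
    · obtain ⟨m, n, hD'⟩ := dpt_of_ap D hD hC
      filter_upwards [H383.EV_near D.df.irr hD' hxz] with y h5 hi' hj' hr
      exact hr.ap z (by rw [dist_comm]; exact (h5 hi' hj').1) h4 hC

end Vale.Agent.P032.H747
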