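import Vale.Agent.P032.S5.H306.Disc
import Vale.Agent.P032.H538.State1

/-!
# P032: harmless points in the world without covering pairs

`hN` : two points at distance one with at least four colours miss a common colour (`NoCov T`).
* `Irr.noStar_cov` : no D-star pair (the two palettes of a D-star pair are all colours).
* `Irr.up_cov` : unit pairs of harmless points: if the pair outside the arcs of one of them is in the
  palette of the other one, it is the arc pair of the other one.
* `Harm.three_cov` : palettes of order four at distance one from each other are equal or have three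
  common colours.
Two-pair points at distance one of a harmless point are allowed.
-/

open Set Filter Topology Metric

noncomputable section

namespace Vale.Agent.P032.Six

variable {U : Fin 6 → Set ℂ} {T : ℂ → Set (Fin 6)}

/-- **No D-star pair** -/
theorem Irr.noStar_cov (h : Irr U T)
    (hN : ∀ z y, dist z y = 1 → 4 ≤ (T z).ncard → 4 ≤ (T y).ncard → ∃ i, i ∉ T z ∧ i ∉ T y) :
    NoStar T := by
  intro z A z' A' hA hA' hd hC
  have P := DP.of h hA hA' hd hC
  obtain ⟨i, h1, h2⟩ := hN z z' hd hA.card.ge hA'.card.ge
  rw [P.cz, mem_compl_iff, not_not] at h1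
  rw [P.cy, mem_compl_iff, not_not] at h2
  have h3 := hA.sub h2
  rw [P.cz] at h3
  exact h3 h1

/-- unit pairs of harmless points: the pair outside of one of them is the pair of the other -/
theorem Irr.up_cov (h : Irr U T) (hmin : Mn U T)
    (hN : ∀ z y, dist z y = 1 → 4 ≤ (T z).ncard → 4 ≤ (T y).ncard → ∃ i, i ∉ T z ∧ i ∉ T y)
    {z x : ℂ} {A B : Set (Fin 6)} (hz : Harm T z A) (hx : Harm T x B) (hxz : dist x z = 1)
    (hC : T z \ A ⊆ T x) : B = T z \ A := by
  rcases hz.unit_pair h (fun z h4 s hs hne => hmin z h4 s hs hne) hx hxz hC with h1 | ⟨h1, -⟩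
  · exact h1
  · exact absurd h1 (h.noStar_cov hN z A x B hz hx (by rw [dist_comm]; exact hxz))

/-- two palettes of order four at distance one: equal, or three common colours -/
theorem three_cov
    (hN : ∀ z y, dist z y = 1 → 4 ≤ (T z).ncard → 4 ≤ (T y).ncard → ∃ i, i ∉ T z ∧ i ∉ T y)
    {z y : ℂ} (hd : dist z y = 1) (hz : (T z).ncard = 4) (hy : (T y).ncard = 4) :
    T y = T z ∨ (T z ∩ T y).ncard = 3 := by
  obtain ⟨i, h1, h2⟩ := hN z y hd hz.ge hy.ge
  have h3 : (T z ∪ T y).ncard ≤ 5 := by
    have h4 : T z ∪ T y ⊆ {i}ᶜ := by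
      rintro j (hj | hj) rfl
      · exact h1 hj
      · exact h2 hj
    refine (Set.ncard_le_ncard h4 (Set.toFinite _)).trans ?_
    have h5 := Set.ncard_add_ncard_compl ({i} : Set (Fin 6))
    rw [Set.ncard_singleton] at h5
    have h6 : Nat.card (Fin 6) = 6 := by simp
    omega
  have h4 := Set.ncard_union_add_ncard_inter (T z) (T y) (Set.toFinite _) (Set.toFinite _)
  have h5 : (T z ∩ T y).ncard ≤ 4 := by
    rw [← hz]; exact Set.ncard_le_ncard inter_subset_left (Set.toFinite _)
  rcases eq_or_lt_of_le h5 with h6 | h6
  · left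
    have h7 : T z ∩ T y = T z :=
      Set.eq_of_subset_of_ncard_le inter_subset_left (by rw [h6, hz]) (Set.toFinite _)
    have h8 : T z ∩ T y = T y :=
      Set.eq_of_subset_of_ncard_le inter_subset_right (by rw [h6, hy]) (Set.toFinite _)
    rw [← h8, h7]
  · right; omega

end Vale.Agent.P032.Six
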