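import Vale.Agent.P032.H747.L1B

/-!
# P032, X.L1: the labels in the frame `DSt`

`stS S x` : the state at `x` on the triples which meet `S` (a regular pair or a base), value one at
the complement of a base.  `BaseD T f x S` : three colours of `x`, all pairs regular.
`Ext` : extra bases at two-pair points with given states.  `DSt.labI` : the hypotheses of the label
theorem over every pair.  `DSt.exists_Psi` : the labels.
-/

open Set Filter Topology Metric

noncomputable section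

namespace Vale.Agent.P032.H747

open Vale.Agent.P032.S5 Vale.Agent.P032.S5.Tab Vale.Agent.P032.Six Vale.Agent.P032.Carr

variable {U : Fin 6 → Set ℂ} {T : ℂ → Set (Fin 6)} {f : ℂ → Set (Fin 6)} {Z : Set ℂ} {c v : ℂ}
  {R δ₀ : ℝ} {x y z : ℂ} {i j k : Fin 6} {S S' : Finset (Fin 6)} {p : Finset (Fin 6)}

/-- the state at `x` for the set `S` of colours -/
def stS (T : ℂ → Set (Fin 6)) (Z : Set ℂ) (f : ℂ → Set (Fin 6)) (δ₀ : ℝ) (S : Finset (Fin 6))
    (x : ℂ) : Ch := S5.End.zc (fun _ => (S : Set (Fin 6))) (fun a _ => lamT T Z f δ₀ a x) x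

/-- three colours of `x`, all pairs regular -/
structure BaseD (T f : ℂ → Set (Fin 6)) (x : ℂ) (S : Finset (Fin 6)) : Prop where
  card : S.card = 3
  reg : ∀ i ∈ S, ∀ j ∈ S, i ≠ j → Rg2 T f i j x

theorem BaseD.mem (B : BaseD T f x S) : ∀ i ∈ S, i ∈ T x := by
  intro i hi
  obtain ⟨j, hj, hji⟩ := Finset.exists_mem_ne (by rw [B.card]; norm_num) i
  exact (B.reg i hi j hj hji.symm).hi

/-- the interface for a set of colours with regular pairs -/
theorem lamB_of (D : DSt U T Z f c R δ₀) (hx : dist x c ≤ R - 1)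
    (hT : ∀ i ∈ S, i ∈ T x) (hr : ∀ i ∈ S, ∀ j ∈ S, i ≠ j → Rg2 T f i j x)
    (hw : ∀ a b g, a ≠ b → a ≠ g → b ≠ g → (S : Set (Fin 6)) = {a, b, g} → ∀ d e, d ≠ e →
      d ∉ S → e ∉ S → lamT T Z f δ₀ a x d e + lamT T Z f δ₀ b x d e + lamT T Z f δ₀ g x d e = 1) :
    LamB (fun _ => (S : Set (Fin 6))) {x} (fun a _ => lamT T Z f δ₀ a x) where
  symm := fun a _ b c => lamT_symm a x b c
  diag := fun a _ b => lamT_diag a x b
  self := fun a _ b => lamT_self a x b
  loc := fun a y _ _ => Eventually.of_forall fun _ => rfl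
  euler := fun a y _ ha b hb => D.euler hx (hT a ha) hb
  agree := fun y _ a ha b hb d => by
    by_cases hab : a = b
    · rw [hab]
    · exact (hr a ha b hb hab).agree D hx d
  wind := fun y _ a b g hab hag hbg hT' d e hde hd he => hw a b g hab hag hbg hT' d e hde hd he

/-- agreement of the colours of `S` at `x` -/
def AgS (T : ℂ → Set (Fin 6)) (Z : Set ℂ) (f : ℂ → Set (Fin 6)) (δ₀ : ℝ) (S : Finset (Fin 6))
    (x : ℂ) : Prop :=
  ∀ a ∈ S, ∀ b ∈ S, ∀ d, lamT T Z f δ₀ a x b d = lamT T Z f δ₀ b x a d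

theorem agS_of (D : DSt U T Z f c R δ₀) (hx : dist x c ≤ R - 1)
    (hr : ∀ i ∈ S, ∀ j ∈ S, i ≠ j → Rg2 T f i j x) : AgS T Z f δ₀ S x := by
  intro a ha b hb d
  by_cases hab : a = b
  · rw [hab]
  · exact (hr a ha b hb hab).agree D hx d

theorem zzS_swap12 (h : AgS T Z f δ₀ S x) (p q r : Fin 6) :
    zz (fun _ => (S : Set (Fin 6))) (fun a _ => lamT T Z f δ₀ a x) x p q r =
      zz (fun _ => (S : Set (Fin 6))) (fun a _ => lamT T Z f δ₀ a x) x q p r := by
  unfold zz
  by_cases hp : p ∈ (S : Set (Fin 6))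
  · by_cases hq : q ∈ (S : Set (Fin 6))
    · simp only [hp, hq, if_true]
      exact h p (by exact_mod_cast hp) q (by exact_mod_cast hq) r
    · simp only [hp, hq, if_true, if_false]
  · by_cases hq : q ∈ (S : Set (Fin 6))
    · simp only [hp, hq, if_true, if_false]
    · by_cases hr : r ∈ (S : Set (Fin 6))
      · simp only [hp, hq, hr, if_true, if_false]
        exact lamT_symm r x p q
      · simp only [hp, hq, hr, if_false]
        have : (p ≠ q ∧ p ≠ r ∧ q ≠ r) ↔ (q ≠ p ∧ q ≠ r ∧ p ≠ r) := by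
          constructor
          · rintro ⟨h1, h2, h3⟩; exact ⟨h1.symm, h3, h2⟩
          · rintro ⟨h1, h2, h3⟩; exact ⟨h1.symm, h3, h2⟩
        simp [this]

theorem zzS_swap23 (h : AgS T Z f δ₀ S x) (p q r : Fin 6) :
    zz (fun _ => (S : Set (Fin 6))) (fun a _ => lamT T Z f δ₀ a x) x p q r =
      zz (fun _ => (S : Set (Fin 6))) (fun a _ => lamT T Z f δ₀ a x) x p r q := by
  unfold zz
  by_cases hp : p ∈ (S : Set (Fin 6))
  · simp only [hp, if_true]; exact lamT_symm p x q r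
  · by_cases hq : q ∈ (S : Set (Fin 6))
    · by_cases hr : r ∈ (S : Set (Fin 6))
      · simp only [hp, hq, hr, if_true, if_false]
        rw [lamT_symm q x p r, lamT_symm r x p q]
        exact h q (by exact_mod_cast hq) r (by exact_mod_cast hr) p
      · simp only [hp, hq, hr, if_true, if_false]
    · by_cases hr : r ∈ (S : Set (Fin 6))
      · simp only [hp, hq, hr, if_true, if_false]
      · simp only [hp, hq, hr, if_false]
        have : (p ≠ q ∧ p ≠ r ∧ q ≠ r) ↔ (p ≠ r ∧ p ≠ q ∧ r ≠ q) := by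
          constructor
          · rintro ⟨h1, h2, h3⟩; exact ⟨h2, h1, h3.symm⟩
          · rintro ⟨h1, h2, h3⟩; exact ⟨h2, h1, h3.symm⟩
        simp [this]

/-- value of the state at a triple with a colour of `S` -/
theorem stS_val (h : AgS T Z f δ₀ S x) {a b d : Fin 6} (hab : a ≠ b) (had : a ≠ d) (hbd : b ≠ d)
    (ha : a ∈ S) : stS T Z f δ₀ S x {a, b, d} = lamT T Z f δ₀ a x b d := by
  rw [stS, S5.End.zc, S5.End.ofF_eq (zzS_swap12 h) (zzS_swap23 h) hab had hbd]
  exact zz_of_mem (K := fun _ => (S : Set (Fin 6))) (by exact_mod_cast ha) b d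

theorem kfS (S : Finset (Fin 6)) (y : ℂ) : S5.End.Kf (fun _ => (S : Set (Fin 6))) y = S := by
  ext i
  simp [S5.End.Kf]

/-- **Support** of the state -/
theorem stS_supp (D : DSt U T Z f c R δ₀) (hx : dist x c ≤ R - 1) (h : AgS T Z f δ₀ S x)
    (hT : ∀ i ∈ S, i ∈ T x) {s : Finset (Fin 6)} (hs : s.card = 3) {t : Fin 6} (ht : t ∈ s)
    (htS : t ∈ S) (hz : stS T Z f δ₀ S x s ≠ 0) : ∃ u ∈ closedBall x 1,
      FcD T f u (s : Set (Fin 6)) ∧ ∃ᶠ w in 𝓝[closedBall x 1 \ {u}] u, t ∈ T w := by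
  obtain ⟨q, r, htq, htr, hqr, rfl⟩ := EndX.split3 hs ht
  rw [stS_val h htq htr hqr htS] at hz
  have h1 := D.supp hx (hT t htS) hz
  simpa using h1

/-- the states for a pair and for a base which contains it -/
theorem stS_res (h : AgS T Z f δ₀ S x) (h' : AgS T Z f δ₀ p x) (hpS : p ⊆ S) {s : Finset (Fin 6)} (hs : s.card = 3) (hsp : ¬ Disjoint s p) :
    stS T Z f δ₀ S x s = stS T Z f δ₀ p x s := by
  obtain ⟨t, ht, htp⟩ := Finset.not_disjoint_iff.1 hsp
  obtain ⟨q, r, htq, htr, hqr, rfl⟩ := EndX.split3 hs ht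
  rw [stS_val h htq htr hqr (hpS htp), stS_val h' htq htr hqr htp]

/-- a base with odd winding and without other complementary pairs has an admissible state -/
theorem BaseD.adm (B : BaseD T f x S) (D : DSt U T Z f c R δ₀) (hx : dist x c ≤ R - 1)
    (hw : ∀ a b g, a ≠ b → a ≠ g → b ≠ g → (S : Set (Fin 6)) = {a, b, g} → ∀ d e, d ≠ e →
      d ∉ S → e ∉ S → lamT T Z f δ₀ a x d e + lamT T Z f δ₀ b x d e + lamT T Z f δ₀ g x d e = 1)
    (hcl : ∀ s : Finset (Fin 6), s.card = 3 → s ≠ S → s ≠ Sᶜ →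
      stS T Z f δ₀ S x s = 0 ∨ stS T Z f δ₀ S x sᶜ = 0) : Adm S (stS T Z f δ₀ S x) := by
  have h := lamB_of D hx B.mem B.reg hw
  have h1 : IsCyc (stS T Z f δ₀ S x) := EndF.zc_isCyc h (mem_singleton x) (by rw [kfS, B.card])
  have h2 : stS T Z f δ₀ S x Sᶜ = 1 := by
    have h2 := EndF.zc_compl h (mem_singleton x) (by rw [kfS, B.card])
    rwa [kfS] at h2
  have h4 := parity' B.card h1 h2 hcl
  refine ⟨h1, h2, fun s hs => ?_⟩
  by_cases hs1 : s = S
  · left; rw [hs1]; exact h4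
  · by_cases hs2 : s = Sᶜ
    · right; rw [hs2, compl_compl]; exact h4
    · exact hcl s hs hs1 hs2

/-- no base at a two-pair point -/
theorem not_base_dpt {a b m n : Fin 6} (hV : DPt T x a b m n) (B : BaseD T f x S) : False := by
  have hsub : ∀ i ∈ S, i = a ∨ i = b ∨ i = m ∨ i = n := by
    intro i hi
    have h1 := B.mem i hi
    rw [hV.pal] at h1
    simpa only [mem_insert_iff, mem_singleton_iff] using h1
  have hab : ¬ (a ∈ S ∧ b ∈ S) := fun h =>
    (B.reg a h.1 b h.2 hV.ab).dg (Or.inr ⟨m, n, hV⟩)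
  have hmn : ¬ (m ∈ S ∧ n ∈ S) := fun h =>
    (B.reg m h.1 n h.2 hV.cd).dg (Or.inr ⟨a, b, hV.swap⟩)
  obtain ⟨q1, q2, q3, h12, h13, h23, rfl⟩ := Finset.card_eq_three.1 B.card
  have e1 := hsub q1 (by simp)
  have e2 := hsub q2 (by simp)
  have e3 := hsub q3 (by simp)
  simp only [Finset.mem_insert, Finset.mem_singleton] at hab hmn
  rcases e1 with rfl | rfl | rfl | rfl <;> rcases e2 with rfl | rfl | rfl | rfl <;>
    rcases e3 with rfl | rfl | rfl | rfl <;> simp_all

/-- a three coloured point, or a harmless point with its pair outside -/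
theorem BaseD.three (B : BaseD T f x S) (h3 : (T x).ncard = 3) : (S : Set (Fin 6)) = T x :=
  Set.eq_of_subset_of_ncard_le (fun i hi => B.mem i (by exact_mod_cast hi))
    (by rw [h3, Set.ncard_coe_finset, B.card]) (Set.toFinite _)

/-- bases stay bases on the points with their colours; this form: no base near a point without it -/
theorem base_nhd (D : DSt U T Z f c R δ₀) (hS : SepH T) (hx : dist x c < R - 1)
    (hno : ¬ BaseD T f x S) : ∀ᶠ y in 𝓝 x, ¬ BaseD T f y S := by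
  by_cases hc : S.card = 3
  swap
  · exact Eventually.of_forall fun y hy => hc hy.card
  have h1 : ∃ i ∈ S, ∃ j ∈ S, i ≠ j ∧ ¬ Rg2 T f i j x := by
    by_contra hcon
    push Not at hcon
    exact hno ⟨hc, fun i hi j hj hij => hcon i hi j hj hij⟩
  obtain ⟨i, hi, j, hj, hij, hr⟩ := h1
  by_cases hT : i ∈ T x ∧ j ∈ T x
  · filter_upwards [irr_nhd D hS hx hij hT.1 hT.2 hr] with y hy B
    have h2 := B.reg i hi j hj hij
    exact hy h2.hi h2.hj h2
  · filter_upwards [D.df.irr.nhd x] with y hy B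
    have h2 := B.reg i hi j hj hij
    exact hT ⟨hy h2.hi, hy h2.hj⟩

/-- the points of the disc where the pair `p` is regular -/
def Ep (T f : ℂ → Set (Fin 6)) (v : ℂ) (p : Finset (Fin 6)) : Set ℂ :=
  {x | x ∈ closedBall v 1 ∧ ∀ i ∈ p, ∀ j ∈ p, i ≠ j → Rg2 T f i j x}

theorem Ep.dist (hx : x ∈ Ep T f v p) (hvc : dist v c < R - 2) : dist x c < R - 1 := by
  have h1 := mem_closedBall.1 hx.1
  have h2 := dist_triangle x v c
  linarith

theorem isCompact_Ep (D : DSt U T Z f c R δ₀) (hS : SepH T) (hvc : dist v c < R - 2)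
    (p : Finset (Fin 6)) : IsCompact (Ep T f v p) := by
  refine (isCompact_closedBall v 1).of_isClosed_subset ?_ fun x hx => hx.1
  rw [← isOpen_compl_iff, isOpen_iff_mem_nhds]
  intro x hx
  by_cases hxB : x ∈ closedBall v 1
  swap
  · filter_upwards [isClosed_closedBall.isOpen_compl.mem_nhds hxB] with y hy hyE
    exact hy hyE.1
  have h1 : ∃ i ∈ p, ∃ j ∈ p, i ≠ j ∧ ¬ Rg2 T f i j x := by
    by_contra hcon
    push Not at hcon
    exact hx ⟨hxB, fun i hi j hj hij => hcon i hi j hj hij⟩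
  obtain ⟨i, hi, j, hj, hij, hr⟩ := h1
  have hxc : dist x c < R - 1 := by
    have h1 := mem_closedBall.1 hxB
    have h2 := dist_triangle x v c
    linarith
  by_cases hT : i ∈ T x ∧ j ∈ T x
  · filter_upwards [irr_nhd D hS hxc hij hT.1 hT.2 hr] with y hy hyE
    have h2 := hyE.2 i hi j hj hij
    exact hy h2.hi h2.hj h2
  · filter_upwards [D.df.irr.nhd x] with y hy hyE
    have h2 := hyE.2 i hi j hj hij
    exact hT ⟨hy h2.hi, hy h2.hj⟩

/-- extra bases over `p`, at two-pair points, with given states -/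
structure Ext (T : ℂ → Set (Fin 6)) (Z : Set ℂ) (f : ℂ → Set (Fin 6)) (δ₀ : ℝ) (v : ℂ)
    (p : Finset (Fin 6)) (Bx : ℂ → Finset (Fin 6) → Prop) (sx : ℂ → Finset (Fin 6) → Ch) :
    Prop where
  dpt : ∀ x ∈ Ep T f v p, ∀ S, Bx x S → ∃ a b m n, DPt T x a b m n
  card : ∀ x ∈ Ep T f v p, ∀ S, Bx x S → S.card = 3
  sub : ∀ x ∈ Ep T f v p, ∀ S, Bx x S → p ⊆ S
  adm : ∀ x ∈ Ep T f v p, ∀ S, Bx x S → Adm S (sx x S)
  res : ∀ x ∈ Ep T f v p, ∀ S, Bx x S → ∀ s : Finset (Fin 6), s.card = 3 → ¬ Disjoint s p →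
    sx x S s = stS T Z f δ₀ p x s

open Classical in
/-- the state at a base or an extra base -/
def stX (T : ℂ → Set (Fin 6)) (Z : Set ℂ) (f : ℂ → Set (Fin 6)) (δ₀ : ℝ)
    (Bx : ℂ → Finset (Fin 6) → Prop) (sx : ℂ → Finset (Fin 6) → Ch) (x : ℂ)
    (S : Finset (Fin 6)) : Ch := if Bx x S then sx x S else stS T Z f δ₀ S x

/-- a base or an extra base -/
def BX (T f : ℂ → Set (Fin 6)) (p : Finset (Fin 6)) (Bx : ℂ → Finset (Fin 6) → Prop) (x : ℂ)
    (S : Finset (Fin 6)) : Prop := (BaseD T f x S ∧ p ⊆ S) ∨ Bx x S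

variable {Bx : ℂ → Finset (Fin 6) → Prop} {sx : ℂ → Finset (Fin 6) → Ch}

theorem stX_ext (hB : Bx x S) : stX T Z f δ₀ Bx sx x S = sx x S := if_pos hB

theorem stX_base (X : Ext T Z f δ₀ v p Bx sx) (hx : x ∈ Ep T f v p) (hB : BaseD T f x S) :
    stX T Z f δ₀ Bx sx x S = stS T Z f δ₀ S x := by
  refine if_neg fun hc => ?_
  obtain ⟨a, b, m, n, hV⟩ := X.dpt x hx S hc
  exact not_base_dpt hV hB

/-- **The hypotheses of the label theorem** over the pair `p`. -/
theorem labI (D : DSt U T Z f c R δ₀) (hS : SepH T) (hvc : dist v c < R - 2) (hp : p.card = 2)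
    (X : Ext T Z f δ₀ v p Bx sx)
    (hadm : ∀ x ∈ closedBall v 1, ∀ S, BaseD T f x S → p ⊆ S → Adm S (stS T Z f δ₀ S x))
    (near1 : ∀ Q ⊆ Ep T f v p, IsPreconnected Q → ∀ x ∈ Q, ∀ y ∈ Q, ∀ S S', BaseD T f x S →
      BaseD T f y S' → p ⊆ S → p ⊆ S' → S ≠ S' →
      (∀ u ∈ closedBall x 1, ¬ FcD T f u (S' : Set (Fin 6))ᶜ) ∨
        (∀ u ∈ closedBall y 1, ¬ FcD T f u (S : Set (Fin 6))ᶜ))
    (near2 : ∀ Q ⊆ Ep T f v p, IsPreconnected Q → ∀ x ∈ Q, ∀ y ∈ Q, ∀ S S', BaseD T f x S →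
      p ⊆ S → Bx y S' → S ≠ S' → ∀ u ∈ closedBall x 1, ¬ FcD T f u (S' : Set (Fin 6))ᶜ)
    (near3 : ∀ Q ⊆ Ep T f v p, IsPreconnected Q → ∀ x ∈ Q, ∀ y ∈ Q, ∀ S S', Bx x S →
      Bx y S' → S = S') :
    LabI (Ep T f v p) p (fun x => stS T Z f δ₀ p x) (stX T Z f δ₀ Bx sx) (BX T f p Bx) := by
  have hlt : ∀ x ∈ Ep T f v p, dist x c < R - 1 := fun x hx => Ep.dist hx hvc
  have hP : ∀ x ∈ Ep T f v p, AgS T Z f δ₀ p x := fun x hx => agS_of D (hlt x hx).le hx.2
  have hPS : ∀ x ∈ Ep T f v p, ∀ S, BaseD T f x S → AgS T Z f δ₀ S x := fun x hx S hB =>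
    agS_of D (hlt x hx).le hB.reg
  have hmem : ∀ x ∈ Ep T f v p, ∀ i ∈ p, i ∈ T x := by
    intro x hx i hi
    obtain ⟨j, hj, hji⟩ := Finset.exists_mem_ne (by rw [hp]; norm_num) i
    exact (hx.2 i hi j hj hji.symm).hi
  -- no face: value zero
  have hzero : ∀ x ∈ Ep T f v p, ∀ S S' : Finset (Fin 6), BaseD T f x S → S.card = 3 →
      S'.card = 3 → S ≠ S' → (∀ u ∈ closedBall x 1, ¬ FcD T f u (S' : Set (Fin 6))ᶜ) →
      stS T Z f δ₀ S x S'ᶜ = 0 := by
    intro x hx S S' hB hc hc' hne hF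
    have h1 : ∃ t ∈ S, t ∉ S' := by
      by_contra hcon
      push Not at hcon
      exact hne (Finset.eq_of_subset_of_card_le hcon (by rw [hc, hc']))
    obtain ⟨t, htS, htS'⟩ := h1
    by_contra hcon
    obtain ⟨u, hu, hF', -⟩ := stS_supp D (hlt x hx).le (hPS x hx S hB) hB.mem
      (by rw [Finset.card_compl, hc']; rfl) (Finset.mem_compl.2 htS') htS hcon
    rw [Finset.coe_compl] at hF'
    exact hF u hu hF'
  refine ⟨isCompact_Ep D hS hvc p, hp, fun x hx => ?_, fun x hx S hno => ?_, fun x hx S hB => ?_,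
    fun x hx S hB => ?_, fun x hx S hB => ?_, fun x hx S hB s hs hsp => ?_,
    fun Q hQE hQ x hx y hy S S' hB hB' hne => ?_⟩
  · -- the pair state is locally constant
    have h1 : ∀ i ∈ p, ∀ᶠ y in 𝓝 x, i ∈ T y → lamT T Z f δ₀ i y = lamT T Z f δ₀ i x :=
      fun i hi => D.loc (hlt x hx).le (hmem x hx i hi)
    filter_upwards [(Finset.eventually_all p).2 h1] with y hy hyE s hs hsp
    obtain ⟨t, ht, htp⟩ := Finset.not_disjoint_iff.1 hsp
    obtain ⟨q, r, htq, htr, hqr, rfl⟩ := EndX.split3 hs ht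
    rw [stS_val (hP y hyE) htq htr hqr htp, stS_val (hP x hx) htq htr hqr htp,
      hy t htp (hmem y hyE t htp)]
  · -- bases are closed
    have h0 : ¬ BaseD T f x S ∨ ¬ p ⊆ S := by
      by_contra hcon
      rw [not_or, not_not, not_not] at hcon
      exact hno (Or.inl hcon)
    have h1 : ∀ᶠ y in 𝓝 x, ¬ (BaseD T f y S ∧ p ⊆ S) := by
      rcases h0 with h0 | h0
      · filter_upwards [base_nhd D hS (hlt x hx) h0] with y hy hB
        exact hy hB.1
      · exact Eventually.of_forall fun y hB => h0 hB.2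
    filter_upwards [h1, D.df.isolated x] with y h2 h3 hyE hB
    rcases hB with hB | hB
    · exact h2 hB
    · have h4 := h3 (X.dpt y hyE S hB)
      rw [h4] at hB
      exact hno (Or.inr hB)
  · rcases hB with hB | hB
    · exact hB.1.card
    · exact X.card x hx S hB
  · rcases hB with hB | hB
    · exact hB.2
    · exact X.sub x hx S hB
  · rcases hB with hB | hB
    · rw [stX_base X hx hB.1]
      exact hadm x hx.1 S hB.1 hB.2
    · rw [stX_ext hB]
      exact X.adm x hx S hB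
  · rcases hB with hB | hB
    · rw [stX_base X hx hB.1]
      exact stS_res (hPS x hx S hB.1) (hP x hx) hB.2 hs hsp
    · rw [stX_ext hB]
      exact X.res x hx S hB s hs hsp
  · have hxE := hQE hx
    have hyE := hQE hy
    rcases hB with ⟨hB, hpS⟩ | hB
    · rcases hB' with ⟨hB', hpS'⟩ | hB'
      · rw [stX_base X hxE hB, stX_base X hyE hB']
        rcases near1 Q hQE hQ x hx y hy S S' hB hB' hpS hpS' hne with h1 | h1
        · exact Or.inl (hzero x hxE S S' hB hB.card hB'.card hne h1)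
        · exact Or.inr (hzero y hyE S' S hB' hB'.card hB.card hne.symm h1)
      · left
        rw [stX_base X hxE hB]
        exact hzero x hxE S S' hB hB.card (X.card y hyE S' hB') hne
          (near2 Q hQE hQ x hx y hy S S' hB hpS hB' hne)
    · rcases hB' with ⟨hB', hpS'⟩ | hB'
      · right
        rw [stX_base X hyE hB']
        exact hzero y hyE S' S hB' hB'.card (X.card x hxE S hB) hne.symm
          (near2 Q hQE hQ y hy x hx S' S hB' hpS' hB hne.symm)
      · exact absurd (near3 Q hQE hQ x hx y hy S S' hB hB') hne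

end Vale.Agent.P032.H747
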