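import Vale.Agent.P032.H747.L1C
import Vale.Agent.P032.H451.LabE

/-!
# P032, X.L1: the labels of all pairs in the frame `DSt`, closed form

`LVal` : the possible values of a label at a two-pair point: the forced value of a base of the
component, or, if the component has no forced base, the class value of the state at the point.
`exists_Psi` : labels over all pairs, value one on the pairs inside `{0, 1, 2}`.
-/

open Set Filter Topology Metric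

noncomputable section

namespace Vale.Agent.P032.H747

open Vale.Agent.P032.S5 Vale.Agent.P032.S5.Tab Vale.Agent.P032.Six Vale.Agent.P032.Carr

variable {U : Fin 6 → Set ℂ} {T : ℂ → Set (Fin 6)} {f : ℂ → Set (Fin 6)} {Z : Set ℂ} {c v : ℂ}
  {R δ₀ : ℝ} {x y z : ℂ} {i j k : Fin 6} {S S' : Finset (Fin 6)} {p : Finset (Fin 6)}

/-- value of the label at a two-pair point -/
def LVal (T : ℂ → Set (Fin 6)) (Z : Set ℂ) (f : ℂ → Set (Fin 6)) (δ₀ : ℝ) (v : ℂ)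
    (p : Finset (Fin 6)) (Bx : ℂ → Finset (Fin 6) → Prop) (sx : ℂ → Finset (Fin 6) → Ch)
    (x : ℂ) (t : ZMod 2) : Prop :=
  (∃ Q ⊆ Ep T f v p, IsPreconnected Q ∧ x ∈ Q ∧ ∃ y ∈ Q, ∃ S, BX T f p Bx y S ∧
      Forced p S (stX T Z f δ₀ Bx sx y S) ∧ t = H451.chiC p S (stX T Z f δ₀ Bx sx y S)) ∨
    ((∀ Q ⊆ Ep T f v p, IsPreconnected Q → x ∈ Q → ∀ y ∈ Q, ∀ S, BX T f p Bx y S →
        ¬ Forced p S (stX T Z f δ₀ Bx sx y S)) ∧ t = H451.psiC p (stS T Z f δ₀ p x))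

theorem LVal.red {Bx : ℂ → Finset (Fin 6) → Prop} {sx : ℂ → Finset (Fin 6) → Ch} {t : ZMod 2}
    (h : LVal T Z f δ₀ v p Bx sx x t) (hp : p ⊆ {0, 1, 2}) : t = 1 := by
  rcases h with ⟨Q, -, -, -, y, -, S, -, -, rfl⟩ | ⟨-, rfl⟩
  · exact H451.chiC_red hp _ _
  · exact H451.psiC_red hp _

/-- the hypotheses on the bases over all pairs -/
structure BsH (T : ℂ → Set (Fin 6)) (Z : Set ℂ) (f : ℂ → Set (Fin 6)) (δ₀ : ℝ) (v : ℂ)
    (Bx : Finset (Fin 6) → ℂ → Finset (Fin 6) → Prop)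
    (sx : Finset (Fin 6) → ℂ → Finset (Fin 6) → Ch) : Prop where
  ext : ∀ p : Finset (Fin 6), p.card = 2 → Ext T Z f δ₀ v p (Bx p) (sx p)
  adm : ∀ x ∈ closedBall v 1, ∀ S, BaseD T f x S → Adm S (stS T Z f δ₀ S x)
  near1 : ∀ p : Finset (Fin 6), p.card = 2 → ∀ Q ⊆ Ep T f v p, IsPreconnected Q →
    ∀ x ∈ Q, ∀ y ∈ Q, ∀ S S', BaseD T f x S → BaseD T f y S' → p ⊆ S → p ⊆ S' → S ≠ S' →
      (∀ u ∈ closedBall x 1, ¬ FcD T f u (S' : Set (Fin 6))ᶜ) ∨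
        (∀ u ∈ closedBall y 1, ¬ FcD T f u (S : Set (Fin 6))ᶜ)
  near2 : ∀ p : Finset (Fin 6), p.card = 2 → ∀ Q ⊆ Ep T f v p, IsPreconnected Q →
    ∀ x ∈ Q, ∀ y ∈ Q, ∀ S S', BaseD T f x S → p ⊆ S → Bx p y S' → S ≠ S' →
      ∀ u ∈ closedBall x 1, ¬ FcD T f u (S' : Set (Fin 6))ᶜ
  near3 : ∀ p : Finset (Fin 6), p.card = 2 → ∀ Q ⊆ Ep T f v p, IsPreconnected Q →
    ∀ x ∈ Q, ∀ y ∈ Q, ∀ S S', Bx p x S → Bx p y S' → S = S'

variable {Bx : Finset (Fin 6) → ℂ → Finset (Fin 6) → Prop}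
  {sx : Finset (Fin 6) → ℂ → Finset (Fin 6) → Ch}

theorem BsH.labI (H : BsH T Z f δ₀ v Bx sx) (D : DSt U T Z f c R δ₀) (hS : SepH T)
    (hvc : dist v c < R - 2) (hp : p.card = 2) :
    LabI (Ep T f v p) p (fun x => stS T Z f δ₀ p x) (stX T Z f δ₀ (Bx p) (sx p))
      (BX T f p (Bx p)) :=
  H747.labI D hS hvc hp (H.ext p hp) (fun x hx S hB _ => H.adm x hx S hB)
    (H.near1 p hp) (H.near2 p hp) (H.near3 p hp)

/-- **The labels.** -/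
theorem exists_Psi (D : DSt U T Z f c R δ₀) (hS : SepH T) (hvc : dist v c < R - 2)
    (H : BsH T Z f δ₀ v Bx sx) :
    ∃ Ψ : Finset (Fin 6) → ℂ → ZMod 2, ∀ p : Finset (Fin 6), p.card = 2 →
      (∀ x ∈ Ep T f v p, ∀ᶠ y in 𝓝 x, y ∈ Ep T f v p → Ψ p y = Ψ p x) ∧
      (∀ x ∈ Ep T f v p, ∀ S, BaseD T f x S → p ⊆ S →
        Ψ p x = H451.PhiC p S (stS T Z f δ₀ S x)) ∧
      (∀ x ∈ Ep T f v p, ∀ S, Bx p x S → Ψ p x = H451.PhiC p S (sx p x S)) ∧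
      (∀ x ∈ Ep T f v p, (∃ a b m n, DPt T x a b m n) →
        LVal T Z f δ₀ v p (Bx p) (sx p) x (Ψ p x)) ∧
      (p ⊆ {0, 1, 2} → ∀ x, Ψ p x = 1) := by
  classical
  have hW : {x | dist x v ≤ 1 ∧ ∃ a b m n, DPt T x a b m n}.Finite := D.df.fin v 1
  have key : ∀ p : Finset (Fin 6), ∃ Ψ : ℂ → ZMod 2, p.card = 2 →
      (∀ x ∈ Ep T f v p, ∀ᶠ y in 𝓝 x, y ∈ Ep T f v p → Ψ y = Ψ x) ∧
      (∀ x ∈ Ep T f v p, ∀ S, BX T f p (Bx p) x S →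
        Ψ x = H451.PhiC p S (stX T Z f δ₀ (Bx p) (sx p) x S)) ∧
      (∀ x ∈ Ep T f v p, (∃ a b m n, DPt T x a b m n) →
        LVal T Z f δ₀ v p (Bx p) (sx p) x (Ψ x)) := by
    intro p
    by_cases hp : p.card = 2
    · obtain ⟨Ψ, h1, h2, h3⟩ := (H.labI D hS hvc hp).exists_labelC hW
      exact ⟨Ψ, fun _ => ⟨h1, h2, fun x hx hV => h3 x ⟨mem_closedBall.1 hx.1, hV⟩ hx⟩⟩
    · exact ⟨fun _ => 0, fun h => absurd h hp⟩
  choose Ψ hΨ using key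
  refine ⟨fun p x => if p ⊆ {0, 1, 2} then 1 else Ψ p x, fun p hp => ?_⟩
  obtain ⟨h1, h2, h3⟩ := hΨ p hp
  by_cases hr : p ⊆ {0, 1, 2}
  · simp only [if_pos hr]
    refine ⟨fun x _ => Eventually.of_forall fun y _ => trivial,
      fun x _ S _ _ => (H451.PhiC_red hr _ _).symm, fun x _ S _ => (H451.PhiC_red hr _ _).symm,
      fun x hx hV => ?_, fun _ x => trivial⟩
    have h4 := h3 x hx hV
    rwa [h4.red hr] at h4
  · simp only [if_neg hr]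
    refine ⟨h1, fun x hx S hB hpS => ?_, fun x hx S hB => ?_, h3, fun h => absurd h hr⟩
    · rw [h2 x hx S (Or.inl ⟨hB, hpS⟩), stX_base (H.ext p hp) hx hB]
    · rw [h2 x hx S (Or.inr hB), stX_ext hB]

end Vale.Agent.P032.H747
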