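import Vale.Agent.P032.H93.Names
import Vale.Agent.P032.H93.Four
import Vale.Agent.P032.H780.Special
import Vale.Agent.P032.H98.AntiP

/-!
# P032: several circles, the general rules at any time, special times included

`FrN U T z N D K C lt` (H93): any finite family of centres.  `EvS` adds to `EvN` the rules at the
time `u`

* `co`    : slots with the same point (`Co`) have the same palette;
* `ctr`   : a slot whose point is a centre (`At`) has the palette of the centre;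
* `split` : if the centre is a two-pair point, the letters before and after are on the two sides;
* `anti`  : closed antipodal rule at two-pair centres;
* `third` : third colour;
* `ok`    : any given constraint `OK` for the palettes.

`FrN.evS` : a left and a right limit column satisfy `EvS`.  `FrN.evO` : any two limit columns satisfy
`EvS` without splits.  `FrN.turn_lab` : the turn by 60 degrees with a class function.
-/

open Set Filter Topology Metric

noncomputable section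

namespace Vale.Agent.P032.H747

open Vale.Agent.P032.Six Vale.Agent.P032.Sweep Vale.Agent.P032.S5.H767 Vale.Agent.P032.S5.H122
  Vale.Agent.P032.H187 Vale.Agent.P032.H93 Vale.Agent.P032.H780

variable {κ Λ : Type} {U : Fin 6 → Set ℂ} {T : ℂ → Set (Fin 6)} {z : κ → ℂ}
  {N : Fin 6 → Fin 6} {D : κ → κ → Prop} {K : κ → Λ → Finset (Fin 6)} {C : κ → Finset (Fin 6)}
  {lt : κ → Set (Fin 6) → Λ} {φ u : ℝ}

/-- colours on the left and on the right of a two-pair point with the pairs `ν 0, ν 1` and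
`ν 2, ν 3` -/
def Spl (ν : Fin 6 → Fin 6) (L R : Finset (Fin 6)) : Prop :=
  (L ⊆ {ν 0, ν 2} ∧ R ⊆ {ν 1, ν 3}) ∨ (L ⊆ {ν 1, ν 3} ∧ R ⊆ {ν 0, ν 2}) ∨
    (L ⊆ {ν 0, ν 3} ∧ R ⊆ {ν 1, ν 2}) ∨ (L ⊆ {ν 1, ν 2} ∧ R ⊆ {ν 0, ν 3})

instance (ν : Fin 6 → Fin 6) (L R : Finset (Fin 6)) : Decidable (Spl ν L R) := by
  unfold Spl; infer_instance

/-- the geometric data of a time: slots with the same point, slots at a centre, triples for the
third colour -/
structure Geo (κ : Type) where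
  Co : κ × Fin 6 → κ × Fin 6 → Prop
  At : κ × Fin 6 → κ → Prop
  Th : κ × Fin 6 → κ × Fin 6 → κ × Fin 6 → Prop

/-- the geometric data are true at the time `u` -/
structure Geo.Ok (G : Geo κ) (z : κ → ℂ) (φ u : ℝ) : Prop where
  co : ∀ s t, G.Co s t → pos z φ u s = pos z φ u t
  ctr : ∀ s k, G.At s k → pos z φ u s = z k
  th : ∀ s t r, G.Th s t r → pos z φ u r ≠ pos z φ u t ∧
    pos z φ u r + pos z φ u t ≠ 2 * pos z φ u s

/-- the general rules for the column before and the column after -/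
structure EvS (D : κ → κ → Prop) (K : κ → Λ → Finset (Fin 6)) (C : κ → Finset (Fin 6))
    (G : Geo κ) (two : κ → Option (Fin 6 → Fin 6)) (OK : κ × Fin 6 → Finset (Fin 6) → Prop)
    (P : κ × Fin 6 → Finset (Fin 6)) (h h' : κ × Fin 6 → Λ) : Prop
    extends EvN D K C P h h' where
  co : ∀ s t, G.Co s t → P s = P t
  ctr : ∀ s k, G.At s k → P s = C k
  third : ∀ s t r, AdjD D s t → AdjD D s r → G.Th s t r → (P s).card ≤ 3 → (P t).card ≤ 3 →
    2 ≤ (P s ∩ P t).card → Disjoint (P s \ P t) (P r)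
  split : ∀ s k ν, G.At s k → two k = some ν → Spl ν (K s.1 (h s)) (K s.1 (h' s))
  anti : ∀ k ν, two k = some ν → ∀ j, ∀ l, (l = h (k, j + 3) ∨ l = h' (k, j + 3)) →
    (K k l = {ν 0, ν 1} → ¬ (ν 2 ∈ P (k, j) ∧ ν 3 ∈ P (k, j))) ∧
    (K k l = {ν 2, ν 3} → ¬ (ν 0 ∈ P (k, j) ∧ ν 1 ∈ P (k, j)))
  ok : ∀ s, OK s (P s)

/-- the two-pair centres of the family -/
def TwoC (T : ℂ → Set (Fin 6)) (z : κ → ℂ) (N : Fin 6 → Fin 6)
    (two : κ → Option (Fin 6 → Fin 6)) : Prop :=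
  ∀ k ν, two k = some ν → DPt T (z k) (N (ν 0)) (N (ν 1)) (N (ν 2)) (N (ν 3))

section frn

variable (F : FrN U T z N D K C lt)
include F

/-- an available letter in names -/
theorem avail_nm {s : κ × Fin 6} {l : Λ} (hu : u ∈ Xl T z φ lt s l) :
    K s.1 l ⊆ PN T z N φ u s := by
  have h1 := nm_mono (N := N) (F.fr.avail hu)
  rw [nm_image F.inj] at h1
  exact h1

omit F in
theorem sub_two' (hN : Function.Injective N) {s : Finset (Fin 6)} {i j : Fin 6}
    (h : N '' (s : Set (Fin 6)) ⊆ {N i, N j}) : s ⊆ {i, j} := by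
  intro m hm
  rcases h ⟨m, Finset.mem_coe.2 hm, rfl⟩ with h1 | h1
  · rw [hN h1]; simp
  · rw [mem_singleton_iff] at h1
    rw [hN h1]; simp

/-- the colours of the letter of a constant palette -/
theorem K_pal {k : κ} {s : ℝ} (hs : s ∈ Lc T (z k)) :
    N '' (K k (lt k (T (pt (z k) s))) : Set (Fin 6)) ⊆ T (pt (z k) s) := F.fr.sub k s hs

theorem K_seenL {k : κ} {s : ℝ} {Q X : Set (Fin 6)} (hQ : SeenL T (z k) s Q)
    (hX : ∀ᶠ w in 𝓝[<] s, T (pt (z k) w) ⊆ X) : N '' (K k (lt k Q) : Set (Fin 6)) ⊆ X := by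
  obtain ⟨w, ⟨hw1, hw2⟩, hw3⟩ := (Frequently.and_eventually hQ hX).exists
  rw [← hw2]
  exact (K_pal F hw1).trans hw3

theorem K_seenR {k : κ} {s : ℝ} {Q X : Set (Fin 6)} (hQ : SeenR T (z k) s Q)
    (hX : ∀ᶠ w in 𝓝[>] s, T (pt (z k) w) ⊆ X) : N '' (K k (lt k Q) : Set (Fin 6)) ⊆ X := by
  obtain ⟨w, ⟨hw1, hw2⟩, hw3⟩ := (Frequently.and_eventually hQ hX).exists
  rw [← hw2]
  exact (K_pal F hw1).trans hw3

/-- **the split of the limit columns at a two-pair point** -/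
theorem spl_col {s : κ × Fin 6} {ν : Fin 6 → Fin 6}
    (hd : DPt T (pos z φ u s) (N (ν 0)) (N (ν 1)) (N (ν 2)) (N (ν 3))) {h h' : κ × Fin 6 → Λ}
    (hh : h ∈ LC (Xl T z φ lt) u) (hh' : h' ∈ RC (Xl T z φ lt) u) :
    Spl ν (K s.1 (h s)) (K s.1 (h' s)) := by
  obtain ⟨X, Y, hXY, h1, h2⟩ := split_ang F.fr.irr hd
  obtain ⟨Q, hQ, hS⟩ := LC_pal hh s
  obtain ⟨Q', hQ', hS'⟩ := RC_pal hh' s
  have k1 := K_seenL F hS h1
  have k2 := K_seenR F hS' h2
  rw [hQ] at k1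
  rw [hQ'] at k2
  rcases hXY with ⟨rfl, rfl⟩ | ⟨rfl, rfl⟩ | ⟨rfl, rfl⟩ | ⟨rfl, rfl⟩
  · exact Or.inl ⟨sub_two' F.inj k1, sub_two' F.inj k2⟩
  · exact Or.inr (Or.inl ⟨sub_two' F.inj k1, sub_two' F.inj k2⟩)
  · exact Or.inr (Or.inr (Or.inl ⟨sub_two' F.inj k1, sub_two' F.inj k2⟩))
  · exact Or.inr (Or.inr (Or.inr ⟨sub_two' F.inj k1, sub_two' F.inj k2⟩))

/-- closed antipodal rule in names, for an available letter -/
theorem anti_nm {k : κ} {j : Fin 6} {ν : Fin 6 → Fin 6} {l : Λ}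
    (hd : DPt T (z k) (N (ν 0)) (N (ν 1)) (N (ν 2)) (N (ν 3)))
    (hl : u ∈ Xl T z φ lt (k, j + 3) l) :
    (K k l = {ν 0, ν 1} → ¬ (ν 2 ∈ PN T z N φ u (k, j) ∧ ν 3 ∈ PN T z N φ u (k, j))) ∧
    (K k l = {ν 2, ν 3} → ¬ (ν 0 ∈ PN T z N φ u (k, j) ∧ ν 1 ∈ PN T z N φ u (k, j))) := by
  have hpal : T (z k) = {N (ν 0), N (ν 1), N (ν 2), N (ν 3)} := hd.pal
  have e3 : pos z φ u (k, j + 3) = 2 * z k - pos z φ u (k, j) := pos_add3 z φ u k j
  constructor
  · rintro hK ⟨h2, h3⟩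
    have hW : N '' (K k l : Set (Fin 6)) = {N (ν 0), N (ν 1)} := by
      rw [hK]; ext i; simp [eq_comm]
    have h4 := F.fr.avail_ex (s := (k, j + 3)) hl (by
      show N '' (K k l : Set (Fin 6)) ⊆ T (z k)
      rw [hW, hpal]
      rintro i (hi | hi)
      · exact Or.inl hi
      · exact Or.inr (Or.inl hi))
    have h5 : pos z φ u (k, j + 3) ∈ closure (Ex T (z k) (N '' (K k l : Set (Fin 6)))) := h4
    rw [e3, hW] at h5
    exact F.fr.irr.anti_clo hd (dist_pos z φ u (k, j)) (mem_nm.1 h2) (mem_nm.1 h3) h5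
  · rintro hK ⟨h0, h1⟩
    have hW : N '' (K k l : Set (Fin 6)) = {N (ν 2), N (ν 3)} := by
      rw [hK]; ext i; simp [eq_comm]
    have h4 := F.fr.avail_ex (s := (k, j + 3)) hl (by
      show N '' (K k l : Set (Fin 6)) ⊆ T (z k)
      rw [hW, hpal]
      rintro i (hi | hi)
      · exact Or.inr (Or.inr (Or.inl hi))
      · exact Or.inr (Or.inr (Or.inr hi)))
    have h5 : pos z φ u (k, j + 3) ∈ closure (Ex T (z k) (N '' (K k l : Set (Fin 6)))) := h4
    rw [e3, hW] at h5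
    exact F.fr.irr.anti_clo hd.swap (dist_pos z φ u (k, j)) (mem_nm.1 h0) (mem_nm.1 h1) h5

/-- the common part of the rules -/
theorem evS_aux [Finite κ] [Finite Λ] {G : Geo κ} (hG : G.Ok z φ u)
    {two : κ → Option (Fin 6 → Fin 6)} (h2 : TwoC T z N two)
    {OK : κ × Fin 6 → Finset (Fin 6) → Prop} (hok : ∀ s, OK s (PN T z N φ u s))
    {h h' : κ × Fin 6 → Λ} (hh : h ∈ LC (Xl T z φ lt) u ∪ RC (Xl T z φ lt) u)
    (hh' : h' ∈ LC (Xl T z φ lt) u ∪ RC (Xl T z φ lt) u)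
    (hs : ∀ s k ν, G.At s k → two k = some ν → Spl ν (K s.1 (h s)) (K s.1 (h' s))) :
    EvS D K C G two OK (PN T z N φ u) h h' where
  toEvN := F.ev hh hh'
  co := fun s t hst => by
    show nm N (T (pos z φ u s)) = nm N (T (pos z φ u t))
    rw [hG.co s t hst]
  ctr := fun s k hsk => by
    show nm N (T (pos z φ u s)) = C k
    rw [hG.ctr s k hsk, F.ctr]
  third := fun s t r hst hsr hth h1 h2 h3 =>
    F.third hh hh' hst hsr h1 h2 h3 (hG.th s t r hth).1 (hG.th s t r hth).2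
  split := hs
  anti := fun k ν hk j l hl => by
    have w := F.fr.sw φ
    have key : ∀ g ∈ LC (Xl T z φ lt) u ∪ RC (Xl T z φ lt) u, Av (Xl T z φ lt) u g := by
      rintro g (hg | hg)
      · exact w.av_of_LC hg
      · exact w.av_of_RC hg
    refine anti_nm F (h2 k ν hk) ?_
    rcases hl with rfl | rfl
    · exact key h hh (k, j + 3)
    · exact key h' hh' (k, j + 3)
  ok := hok

/-- **The rules at any time, special times included**: a left and a right limit column. -/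
theorem evS [Finite κ] [Finite Λ] {G : Geo κ} (hG : G.Ok z φ u)
    {two : κ → Option (Fin 6 → Fin 6)} (h2 : TwoC T z N two)
    {OK : κ × Fin 6 → Finset (Fin 6) → Prop} (hok : ∀ s, OK s (PN T z N φ u s))
    {h h' : κ × Fin 6 → Λ} (hh : h ∈ LC (Xl T z φ lt) u) (hh' : h' ∈ RC (Xl T z φ lt) u) :
    EvS D K C G two OK (PN T z N φ u) h h' :=
  evS_aux F hG h2 hok (Or.inl hh) (Or.inr hh') fun s k ν hsk hk =>
    spl_col F (by rw [hG.ctr s k hsk]; exact h2 k ν hk) hh hh'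

/-- the data without slots at the centres -/
def Geo.gen (G : Geo κ) : Geo κ := ⟨G.Co, fun _ _ => False, G.Th⟩

/-- **The rules for any two limit columns** (no split). -/
theorem evO [Finite κ] [Finite Λ] {G : Geo κ} (hG : G.Ok z φ u)
    {two : κ → Option (Fin 6 → Fin 6)} (h2 : TwoC T z N two)
    {OK : κ × Fin 6 → Finset (Fin 6) → Prop} (hok : ∀ s, OK s (PN T z N φ u s))
    {h h' : κ × Fin 6 → Λ} (hh : h ∈ LC (Xl T z φ lt) u ∪ RC (Xl T z φ lt) u)
    (hh' : h' ∈ LC (Xl T z φ lt) u ∪ RC (Xl T z φ lt) u) :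
    EvS D K C (Geo.gen G) two OK (PN T z N φ u) h h' :=
  evS_aux F (G := Geo.gen G) ⟨hG.co, fun _ _ h => h.elim, hG.th⟩ h2 hok hh hh'
    fun _ _ _ h _ => h.elim

/-- **One turn by 60 degrees with a class function**: special times `0` and the times in `S`. -/
theorem turn_lab [Finite κ] [Finite Λ] {σ : Type*} (lab : (κ × Fin 6 → Λ) → σ) (S : Finset ℝ)
    (hS : ∀ s ∈ S, s ∈ Ioo (0 : ℝ) 1) {E : ℝ → (κ × Fin 6 → Λ) → (κ × Fin 6 → Λ) → Prop}
    (hE : ∀ s ∈ S, ∀ h ∈ LC (Xl T z φ lt) s, ∀ h' ∈ RC (Xl T z φ lt) s, E s h h')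
    (hlab : ∀ u ∈ Ioo (0 : ℝ) 1, u ∉ S → ∀ h ∈ LC (Xl T z φ lt) u ∪ RC (Xl T z φ lt) u,
      ∀ h' ∈ LC (Xl T z φ lt) u ∪ RC (Xl T z φ lt) u, lab h = lab h') :
    ∃ h ∈ LC (Xl T z φ lt) 0, ∃ h' ∈ RC (Xl T z φ lt) 0,
      Cmp (fun g g' => lab g = lab g') E (S.sort (· ≤ ·)) h' (h ∘ rt κ) := by
  have w := F.fr.sw φ
  obtain ⟨h, hh⟩ := w.LC_ne 0
  obtain ⟨h', hh'⟩ := w.RC_ne 0
  refine ⟨h, hh, h', hh', ?_⟩
  have hper : ∀ i l u, u + 1 ∈ Xl T z φ lt i l ↔ u ∈ Xl T z φ lt (rt κ i) l :=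
    fun i l u => Xl_per i l u
  refine w.turn_finset (R := fun g g' => lab g = lab g') (σ := rt κ) hper
    (fun _ _ _ h1 h2 => h1.trans h2) 0 S (fun s hs => ?_) (E := E) hE (fun u hu hS' => ?_) h hh
    h' hh'
  · rw [zero_add]; exact hS s hs
  · rw [zero_add] at hu
    exact fun g hg g' hg' => hlab u hu hS' g hg g' hg'

end frn

end Vale.Agent.P032.H747
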