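import Vale.Agent.P032.S5.H306.Disc
import Vale.Agent.P032.H538.State1

/-!
# P032: no D-star pair if harmless points have only harmless neighbours of order four

`LN T z` : near all points of the unit circle about `z` all points with four colours are harmless.
`Irr.noStarN` : if `LN T z` for all harmless `z`, then there is no D-star pair.
`DF.noStar_of` : in the frame `DF`, if no two-pair point is at distance one from a harmless point.
-/

open Set Filter Topology Metric

noncomputable section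

namespace Vale.Agent.P032.Six

variable {U : Fin 6 → Set ℂ} {T : ℂ → Set (Fin 6)}

/-- near all points of the unit circle about `z` all points with four colours are harmless -/
def LN (T : ℂ → Set (Fin 6)) (z : ℂ) : Prop :=
  ∀ x, dist x z = 1 → ∀ᶠ w in 𝓝 x, 4 ≤ (T w).ncard → ∃ A, Harm T w A

theorem LN.on {z x : ℂ} (H : LN T z) (hx : dist x z = 1) (h4 : 4 ≤ (T x).ncard) :
    ∃ A, Harm T x A := (H x hx).self_of_nhds h4

theorem LN.le {z x : ℂ} (H : LN T z) (hx : dist x z = 1) : (T x).ncard ≤ 4 := by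
  by_contra hcon
  obtain ⟨A, hA⟩ := H.on hx (by omega)
  have := hA.card
  omega

namespace DS

variable {z y : ℂ} {A B : Set (Fin 6)}

/-- next partner, in terms of the rotation -/
theorem next_rotN (h : Irr U T) (hmin : MinF U T) (D : DS T z y A B) {w : ℂ}
    (hw : w ^ 2 = w - 1) (hN : LN T z)
    (o1 : OffS T z (z + (y - z) * w)) (o2 : OffS T z (z + (y - z) * w ^ 2)) :
    DS T z (z + (y - z) * w ^ 2) A B := by
  have hn : ‖y - z‖ = 1 := by rw [← dist_eq_norm]; exact D.d
  have hwn := om_norm hw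
  obtain ⟨w0, w1, w2, w3, w4⟩ := om_ne hw
  have hyz : y - z ≠ 0 := by
    intro h5; rw [h5, norm_zero] at hn; exact zero_ne_one hn
  have d1 : dist (z + (y - z) * w) z = 1 := by
    rw [dist_eq_norm, add_sub_cancel_left, norm_mul, hn, hwn, one_mul]
  have d2 : dist (z + (y - z) * w ^ 2) z = 1 := by
    rw [dist_eq_norm, add_sub_cancel_left, norm_mul, norm_pow, hn, hwn]; norm_num
  have d3 : dist (z + (y - z) * w ^ 2) (z + (y - z) * w) = 1 := by
    rw [dist_eq_norm, show z + (y - z) * w ^ 2 - (z + (y - z) * w) = (y - z) * (w ^ 2 - w) by ring,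
      show w ^ 2 - w = -1 by linear_combination hw, norm_mul, hn]
    norm_num
  have d4 : dist (z + (y - z) * w) y = 1 := by
    rw [dist_eq_norm, show z + (y - z) * w - y = -((y - z) * (1 - w)) by ring, norm_neg, norm_mul,
      hn, om_norm' hw]
    norm_num
  have hle : (T (z + (y - z) * w)).ncard ≤ 4 := by
    by_contra hcon
    obtain ⟨A', hA'⟩ := hN.on d1 (by omega)
    rw [hA'.card] at hcon
    omega
  have hT := D.tip h hw hle o1 o2
  have hT4 : (T (z + (y - z) * w)).ncard = 4 := by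
    rw [hT, Set.ncard_union_eq ((D.dis.mono_right D.hz.sub).symm) (Set.toFinite _)
      (Set.toFinite _), D.hz.cardA, D.hy.cardA]
  obtain ⟨A₁, hA₁⟩ := hN.on d1 hT4.ge
  refine D.next h hmin d1 d2 d3 (fun h6 => ?_) hA₁ hT (D.symm.tri h d4 d1 hA₁)
    (D.tri h d1 d4 hA₁) (D.fl_mem h o2 (D.fl2 h hw o1)) ?_
  · have h7 : (y - z) * (w * (1 - 2 * w)) = 0 := by linear_combination h6
    rcases mul_eq_zero.1 h7 with h8 | h8
    · exact hyz h8
    · rcases mul_eq_zero.1 h8 with h9 | h9
      · exact w0 h9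
      · exact w4 (by linear_combination -h9)
  · exact hN _ d2

/-- **The arcs come to one of the two directions.** -/
theorem meetsN (h : Irr U T) (hmin : MinF U T) (D : DS T z y A B) {w : ℂ}
    (hw : w ^ 2 = w - 1) (hNz : LN T z) (hNy : LN T y)
    (hside : ∃ m ∈ T z \ A, ∀ᶠ p in 𝓝 z, 1 < dist p y → m ∉ T p)
    (o1 : OffS T z (z + (y - z) * w)) (o2 : OffS T z (z + (y - z) * w ^ 2)) : False := by
  have hn : ‖y - z‖ = 1 := by rw [← dist_eq_norm]; exact D.d
  have hwn := om_norm hw
  have hw' : (1 - w) ^ 2 = (1 - w) - 1 := by linear_combination hw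
  obtain ⟨w0, w1, w2, w3, w4⟩ := om_ne hw
  have hyz : y - z ≠ 0 := by
    intro h5; rw [h5, norm_zero] at hn; exact zero_ne_one hn
  -- the partner of `z`
  have Dr := D.next_rotN h hmin hw hNz o1 o2
  -- the partner of `y`
  have e1 : y + (z - y) * (1 - w) = z + (y - z) * w := by ring
  have e2 : y + (z - y) * (1 - w) ^ 2 = y + (y - z) * w := by
    linear_combination (z - y) * hw
  have Ds : DS T y (y + (y - z) * w) B A := by
    have := D.symm.next_rotN h hmin hw' hNy (by rw [e1]; exact D.off2 h hw o2) (by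
      rw [e2]
      have := D.off h o1
      rwa [show z + (y - z) * w + (y - z) = y + (y - z) * w by ring] at this)
    rwa [e2] at this
  set r := z + (y - z) * w ^ 2 with hr
  set t := 2 * z - y with ht
  have dt : dist t z = 1 := by
    rw [dist_eq_norm, ht, show 2 * z - y - z = -(y - z) by ring, norm_neg, hn]
  have dtr : dist t r = 1 := by
    rw [dist_eq_norm, ht, hr,
      show 2 * z - y - (z + (y - z) * w ^ 2) = -((y - z) * w) by linear_combination -(y - z) * hw,
      norm_neg, norm_mul, hn, hwn, one_mul]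
  -- `t` on the circle about `z`
  have f1 : Fl T z t B := by
    have := D.fl_rot h hw o2 (D.fl2 h hw o1)
    rwa [show z + (r - z) * w = t by rw [hr, ht]; linear_combination (y - z) * (w + 1) * hw] at this
  have hBt : B ⊆ T t := D.fl_mem h (D.off_y' h) f1
  -- `t` on the circle about `r`
  have f2 : Fl T r t A := by
    have := Dr.symm.fl_rot h hw' (Dr.symm.off_y h) (Dr.symm.fl_y h)
    rwa [show r + (z - r) * (1 - w) = t by
      rw [hr, ht]; linear_combination (y - z) * (w + 1) * hw] at this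
  have o3 : OffS T r t := by
    -- direction `- (y - z) w` at `z`
    have h1 := Ds.off_y' h
    have h2 := D.symm.off h h1
    have h3 := Dr.off h h2
    rwa [show 2 * y - (y + (y - z) * w) + (z - y) + (r - z) = t by
      rw [hr, ht]; linear_combination (y - z) * hw] at h3
  have hAt : A ⊆ T t := Dr.symm.fl_mem h o3 f2
  have hle : (T t).ncard ≤ 4 := by
    by_contra hcon
    obtain ⟨A', hA'⟩ := hNz.on dt (by omega)
    rw [hA'.card] at hcon
    omega
  have hTt := D.union hle hAt hBt
  obtain ⟨At, hAt'⟩ := hNz.on dt (by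
    rw [hTt, Set.ncard_union_eq ((D.dis.mono_right D.hz.sub).symm) (Set.toFinite _)
      (Set.toFinite _), D.hz.cardA, D.hy.cardA])
  have hne : At ≠ A := Dr.symm.tri h dtr dt hAt'
  obtain ⟨m, hm, hmev⟩ := hside
  obtain ⟨m', hm', hmm'⟩ : ∃ m' ∈ T z \ A, ∀ i ∈ T z \ A, i = m ∨ i = m' := by
    obtain ⟨a, b, hab, hC⟩ := Set.ncard_eq_two.1 D.hz.cardC
    rw [hC] at hm ⊢
    rcases hm with rfl | hm
    · exact ⟨b, by simp, fun i hi => hi⟩
    · have hm : m = b := hm
      subst hm
      exact ⟨a, by simp, fun i hi => hi.symm⟩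
  -- the circle about `t` carries `m'` near `z`
  have key : ∀ᶠ q in 𝓝[sphere t 1] z, m' ∈ T q := by
    filter_upwards [mem_nhdsWithin_of_mem_nhds hmev, mem_nhdsWithin_of_mem_nhds (h.nhd z),
      self_mem_nhdsWithin] with q h1 h2 h3
    by_cases hqz : q = z
    · rw [hqz]; exact hm'.1
    have h3 : dist q t = 1 := h3
    have h4 : 1 < dist q y := by
      have h5 : dist q t ^ 2 + dist q y ^ 2 = 2 * dist q z ^ 2 + 2 := by
        have h6 := parallelogram_law_with_norm ℝ (q - z) (y - z)
        rw [show q - z + (y - z) = q - t by rw [ht]; ring,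
          show q - z - (y - z) = q - y by ring, ← dist_eq_norm, ← dist_eq_norm, ← dist_eq_norm,
          hn] at h6
        nlinarith
      have h6 : 0 < dist q z := dist_pos.2 hqz
      rw [h3] at h5
      nlinarith [dist_nonneg (x := q) (y := y)]
    have h5 := h1 h4
    by_contra hcon
    have h6 : T q ⊆ A := by
      intro i hi
      by_contra hiA
      rcases hmm' i ⟨h2 hi, hiA⟩ with rfl | rfl
      · exact h5 hi
      · exact hcon hi
    have h7 := hAt'.h1 q h3 (h6.trans (by rw [hTt]; exact subset_union_left))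
    exact hne (Set.eq_of_subset_of_ncard_le (h7.trans h6) (by rw [hAt'.cardA, D.hz.cardA])
      (Set.toFinite _))
  have hmr : m' ∈ T r := by
    have : m' ∈ T r \ B := by rw [← Dr.C]; exact hm'
    exact this.1
  rcases h.wp (by rw [dist_comm]; exact dt) key (by rw [dist_comm]; exact Dr.d) hmr with h1 | h1
  · have h2 : (y - z) * w = 0 := by
      rw [hr, ht] at h1; linear_combination h1 - (y - z) * hw
    rcases mul_eq_zero.1 h2 with h3 | h3
    · exact hyz h3
    · exact w0 h3
  · have h2 : (y - z) * (w - 2) = 0 := by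
      rw [hr, ht] at h1; linear_combination h1 - (y - z) * hw
    rcases mul_eq_zero.1 h2 with h3 | h3
    · exact hyz h3
    · exact w2 (by linear_combination h3)

/-- **The arcs come to one of the two directions on both sides.** -/
theorem meets_psiN (h : Irr U T) (hmin : MinF U T) (D : DS T z y A B)
    (hNz : LN T z) (hNy : LN T y)
    (hside : ∃ m ∈ T z \ A, ∀ᶠ p in 𝓝 z, 1 < dist p y → m ∉ T p) :
    (-(Real.pi / 6) ∈ closure (OPsi T z (y - z)) ∨ Real.pi / 6 ∈ closure (OPsi T z (y - z))) ∧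
      (5 * Real.pi / 6 ∈ closure (OPsi T z (y - z)) ∨
        7 * Real.pi / 6 ∈ closure (OPsi T z (y - z))) := by
  have hn : ‖y - z‖ = 1 := by rw [← dist_eq_norm]; exact D.d
  have e1 : Complex.I * cis (-(Real.pi / 6)) = cis (Real.pi / 3) := by
    rw [cis_third25, cis_of25 (-(Real.pi / 6)) (c := √3 / 2) (s := -(1 / 2))
      (by rw [Real.cos_neg, Real.cos_pi_div_six]) (by rw [Real.sin_neg, Real.sin_pi_div_six])]
    refine Complex.ext ?_ ?_ <;> simp
  have e2 : Complex.I * cis (Real.pi / 6) = cis (Real.pi / 3) ^ 2 := by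
    rw [om_third25, cis_third25, cis_sixth25]
    refine Complex.ext ?_ ?_ <;> simp
    norm_num
  have hw := om_third25
  have hw' : (1 - cis (Real.pi / 3)) ^ 2 = (1 - cis (Real.pi / 3)) - 1 := by
    linear_combination hw
  have e3 : Complex.I * cis (5 * Real.pi / 6) = (1 - cis (Real.pi / 3)) ^ 2 := by
    rw [hw', cis_third25, cis_of25 (5 * Real.pi / 6) (c := -(√3 / 2)) (s := 1 / 2)
      (by rw [show 5 * Real.pi / 6 = Real.pi - Real.pi / 6 by ring, Real.cos_pi_sub,
        Real.cos_pi_div_six])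
      (by rw [show 5 * Real.pi / 6 = Real.pi - Real.pi / 6 by ring, Real.sin_pi_sub,
        Real.sin_pi_div_six])]
    refine Complex.ext ?_ ?_ <;> simp
  have e4 : Complex.I * cis (7 * Real.pi / 6) = 1 - cis (Real.pi / 3) := by
    rw [cis_third25, cis_of25 (7 * Real.pi / 6) (c := -(√3 / 2)) (s := -(1 / 2))
      (by rw [show 7 * Real.pi / 6 = Real.pi / 6 + Real.pi by ring, Real.cos_add_pi,
        Real.cos_pi_div_six])
      (by rw [show 7 * Real.pi / 6 = Real.pi / 6 + Real.pi by ring, Real.sin_add_pi,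
        Real.sin_pi_div_six])]
    refine Complex.ext ?_ ?_ <;> simp
    norm_num
  constructor
  · by_contra hcon
    push Not at hcon
    have o1 := offS_of_psi hn hcon.1
    have o2 := offS_of_psi hn hcon.2
    rw [mul_comm Complex.I, mul_assoc, e1] at o1
    rw [mul_comm Complex.I, mul_assoc, e2] at o2
    exact D.meetsN h hmin hw hNz hNy hside o1 o2
  · by_contra hcon
    push Not at hcon
    have o1 := offS_of_psi hn hcon.1
    have o2 := offS_of_psi hn hcon.2
    rw [mul_comm Complex.I, mul_assoc, e3] at o1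
    rw [mul_comm Complex.I, mul_assoc, e4] at o2
    exact D.meetsN h hmin hw' hNz hNy hside o2 o1

end DS

namespace DP

variable {z y : ℂ} {A B : Set (Fin 6)}

/-- everything at an end, local form -/
theorem end_allN (P : DP T z y A B) (h : Irr U T) (hmin : MinF U T) (Hz : LN T z) (Hy : LN T y)
    {ξ : ℂ}
    (hξ : ‖ξ‖ = 1) (hcl : ξ ∈ closure (Dir T z)) (hn : ¬ T (z + ξ) ⊆ T z) :
    (∃ s ∈ T z \ A, s ∈ T (z + ξ)) ∧ (∃ A' B', DP T (z + ξ) (y + ξ) A' B') ∧
      Disjoint (Dir T (z + ξ)) (Dir T z) ∧ (¬ T z ⊆ T (z + ξ)) ∧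
      ∃ᶠ x in 𝓝[sphere (z + ξ) 1] z, T x ⊆ T (z + ξ) := by
  have hne : ξ ≠ z - y := fun h1 => (P.notAxis306 h).1 (h1 ▸ hcl)
  have hne' : ξ ≠ y - z := fun h1 => (P.notAxis306 h).2 (h1 ▸ hcl)
  have hcl' : ξ ∈ closure (Dir T y) := by rw [← P.dirEq306 h]; exact hcl
  have hnw : ¬ T (y + ξ) ⊆ T y := fun h1 => by
    have : ξ ∈ Dir T y := ⟨hξ, h1⟩
    rw [← P.dirEq306 h] at this
    exact hn this.2
  have dv : dist (z + ξ) z = 1 := by rw [dist_eq_norm, add_sub_cancel_left, hξ]
  have dw : dist (y + ξ) y = 1 := by rw [dist_eq_norm, add_sub_cancel_left, hξ]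
  have v4 : (T (z + ξ)).ncard ≤ 4 := Hz.le dv
  have w4 : (T (y + ξ)).ncard ≤ 4 := Hy.le dw
  have hv : (T (z + ξ)).ncard = 4 → ∃ A', Harm T (z + ξ) A' := fun h1 => Hz.on dv h1.ge
  have hw : (T (y + ξ)).ncard = 4 → ∃ A', Harm T (y + ξ) A' := fun h1 => Hy.on dw h1.ge
  obtain ⟨s, hs, x, hx, hTv, A', hA', hsA', hA's⟩ := P.ends306 h hξ hcl hn v4 w4 hv hw
  obtain ⟨s', hs', t, ht, hTw, B', hB', hsB', hB's⟩ :=
    P.symm.ends306 h hξ hcl' hnw w4 v4 hw hv
  have hNext := P.reproL h hmin hξ hne hne' hs hx hTv hA' hsA' hA's hs' ht hTw hB' hsB' hB's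
    ((Hz _ dv).mono fun x hx h4 => hx h4.ge)
    ((Hy _ dw).mono fun x hx h4 => hx h4.ge)
  obtain ⟨s0, hs0, hs0s, hC2⟩ := pair_of306 P.hz.cardC hs
  have hxz : x ∉ T z := by rw [P.cz]; exact fun h1 => h1 hx
  have hs0v : s0 ∉ T (z + ξ) := by
    rw [hTv]
    rintro (h1 | h1 | h1)
    · exact hs0.2 h1
    · exact hs0s h1
    · rw [mem_singleton_iff] at h1
      exact hxz (h1 ▸ hs0.1)
  have hs0y : s0 ∈ T y := by
    have : s0 ∈ T y \ B := P.hC ▸ hs0
    exact this.1
  have hdvz : dist (z + ξ) z = 1 := by rw [dist_eq_norm, add_sub_cancel_left]; exact hξ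
  refine ⟨⟨s, hs, by rw [hTv]; exact Or.inr (Or.inl rfl)⟩, ⟨A', B', hNext⟩, ?_,
    fun h1 => hs0v (h1 hs0.1), ?_⟩
  · rw [Set.disjoint_left]
    intro δ hδ hδz
    obtain ⟨τ, hτ, hτs, hA2⟩ := pair_of306 hA'.cardA hsA'
    have hτA : τ ∈ A := by
      rcases hA's hτ with h1 | h1
      · exact absurd h1 hτs
      · exact h1
    have h1 : A' ⊆ T (z + ξ + δ) :=
      hA'.h1 _ (by rw [dist_eq_norm, add_sub_cancel_left]; exact hδ.1) hδ.2
    have h2 : dist (z + δ) z = 1 := by rw [dist_eq_norm, add_sub_cancel_left]; exact hδz.1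
    have h3 : dist (z + δ) (z + ξ + δ) = 1 := by
      rw [dist_comm, dist_eq_norm]
      have : z + ξ + δ - (z + δ) = ξ := by ring
      rw [this]; exact hξ
    have hJ : ∀ᶠ q in 𝓝[sphere z 1] (z + δ), τ ∈ Pal U q := by
      have e1 : ∀ᶠ q in 𝓝[sphere z 1] (z + δ), T q ⊆ T (z + δ) :=
        mem_nhdsWithin_of_mem_nhds (h.nhd (z + δ))
      have e2 : ∀ᶠ q in 𝓝[sphere z 1] (z + δ), dist q z = 1 := self_mem_nhdsWithin
      filter_upwards [e1, e2] with q hq1 hq2
      exact h.sub q (P.hz.h1 q hq2 (hq1.trans hδz.2) hτA)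
    rcases h.mx.partner_line (v := z + ξ + δ) h2 hJ h3 (h.sub _ (h1 hτ)) with h4 | h4
    · have h5 := hδ.2
      rw [h4] at h5
      exact hs0v (h5 hs0.1)
    · have h5 : ξ = δ := by linear_combination h4
      rw [h5] at hn
      exact hn hδz.2
  · have hf : ∃ᶠ q in 𝓝[sphere (z + ξ) 1] z, s0 ∉ T q := by
      intro hcon
      rcases h.mx.partner_line (v := y) (by rw [dist_comm]; exact hdvz)
        (hcon.mono fun q hq => h.sub q (not_not.1 hq)) P.d (h.sub y hs0y) with h1 | h1
      · exact hne' (by linear_combination -h1)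
      · exact hne (by linear_combination h1)
    have e1 : ∀ᶠ q in 𝓝[sphere (z + ξ) 1] z, T q ⊆ T z := mem_nhdsWithin_of_mem_nhds (h.nhd z)
    refine (hf.and_eventually e1).mono fun q hq i hi => ?_
    have h1 := hq.2 hi
    rw [hTv]
    by_cases hiA : i ∈ A
    · exact Or.inl hiA
    · have h2 : i ∈ T z \ A := ⟨h1, hiA⟩
      rw [hC2] at h2
      rcases h2 with h2 | h2
      · exact Or.inr (Or.inl h2)
      · rw [mem_singleton_iff] at h2
        exact absurd (h2 ▸ hi) hq.1

/-- **No D-star pair**, local form. -/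
theorem falseN (P : DP T z y A B) (h : Irr U T) (hmin : MinF U T)
    (H : ∀ x A, Harm T x A → LN T x) : False := by
  have hpi := Real.pi_pos
  set n : ℂ := y - z with hn
  have hn1 : ‖n‖ = 1 := by rw [hn, ← dist_eq_norm, dist_comm]; exact P.d
  have epi : ∀ t : ℝ, cis (t + Real.pi) = -cis t := by
    intro t
    rw [cis, cis, Complex.ofReal_add, add_mul, Complex.exp_add, Complex.exp_pi_mul_I]; ring
  let S : ℕ → Set ℂ := fun _ => {z' | ∃ A B, DP T z' (z' + n) A B}
  have hends : ∀ k, ∀ z' ∈ S k, ∀ b, b ∈ closure (DO T n z') → b ∉ DO T n z' →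
      (∃ A B, DP T z' (z' + n) A B ∧ ∃ s ∈ T z' \ A, s ∈ T (z' + Complex.I * n * cis b)) ∧
      (∃ A' B', DP T (z' + Complex.I * n * cis b) (z' + Complex.I * n * cis b + n) A' B') ∧
      Disjoint (Dir T (z' + Complex.I * n * cis b)) (Dir T z') ∧
      (¬ T z' ⊆ T (z' + Complex.I * n * cis b)) ∧
      ∃ᶠ x in 𝓝[sphere (z' + Complex.I * n * cis b) 1] z',
        T x ⊆ T (z' + Complex.I * n * cis b) := by
    intro k z' hz' b hb hb'
    obtain ⟨A0, B0, Q⟩ := hz'
    obtain ⟨h1, ⟨A', B', h2⟩, h3, h4, h5⟩ := Q.end_allN h hmin (H _ _ Q.hz) (H _ _ Q.hy)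
      (norm_In hn1 b)
      (closure_DO306 hn1 hb) hb'
    refine ⟨⟨A0, B0, Q, h1⟩, ⟨A', B', ?_⟩, h3, h4, h5⟩
    have e : z' + n + Complex.I * n * cis b = z' + Complex.I * n * cis b + n := by ring
    rw [e] at h2
    exact h2
  have e1 : cis (Real.pi / 2) = Complex.I := by
    rw [cis]; push_cast; exact Complex.exp_pi_div_two_mul_I
  have e2 : cis (-(Real.pi / 2)) = -Complex.I := by
    rw [cis]; push_cast
    rw [neg_mul, Complex.exp_neg, Complex.exp_pi_div_two_mul_I, Complex.inv_I]
  have hmeet : ∀ k, ∀ z' ∈ S k,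
      (-(Real.pi / 6) ∈ closure (DO T n z') ∨ Real.pi / 6 ∈ closure (DO T n z')) ∧
      (-(Real.pi / 6) + Real.pi ∈ closure (DO T n z') ∨
        Real.pi / 6 + Real.pi ∈ closure (DO T n z')) := by
    intro k z' hz'
    obtain ⟨A0, B0, Q⟩ := hz'
    have hyz : dist (z' + n) z' = 1 := by rw [dist_eq_norm, add_sub_cancel_left]; exact hn1
    have hD : DS T z' (z' + n) A0 B0 := ⟨Q.hz, Q.hy, hyz, Q.hC, by
      rw [Q.cz]; exact disjoint_compl_right⟩
    have h1 := hD.meets_psiN h hmin (H _ _ Q.hz) (H _ _ Q.hy) (Q.hz.side h Q.hy Q.hC hyz)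
    have e3 : -(Real.pi / 6) + Real.pi = 5 * Real.pi / 6 := by ring
    have e4 : Real.pi / 6 + Real.pi = 7 * Real.pi / 6 := by ring
    rw [e3, e4]
    rw [add_sub_cancel_left] at h1
    exact h1
  have hS : S 4 = ∅ := by
    refine dstar_endL S (fun z' => DO T n z') (fun k z' _ => DO_open h n z') ?_ ?_ ?_
      (fun k z' hz' => (hmeet k z' hz').1) (fun k z' hz' => (hmeet k z' hz').2) ?_
    · rintro k z' ⟨A0, B0, Q⟩ h1
      have h2 := closure_DO306 (T := T) (z := z') hn1 h1
      rw [e2] at h2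
      refine (Q.notAxis306 h).2 ?_
      have e : z' + n - z' = Complex.I * n * -Complex.I := by
        have := Complex.I_mul_I
        linear_combination n * this
      rw [e]; exact h2
    · rintro k z' ⟨A0, B0, Q⟩ h1
      have h2 := closure_DO306 (T := T) (z := z') hn1 h1
      rw [e1] at h2
      refine (Q.notAxis306 h).1 ?_
      have e : z' - (z' + n) = Complex.I * n * Complex.I := by
        have := Complex.I_mul_I
        linear_combination -n * this
      rw [e]; exact h2
    · intro k z' hz' b hb1 hb2 hb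
      rcases hb with ⟨h1, h2⟩ | ⟨h1, h2⟩
      · obtain ⟨⟨A0, B0, Q, s, hs, hsv⟩, -⟩ := hends k z' hz' b h1 h2
        exact Q.hz.hull_psi h hn1 Q.hy Q.hC hb1 hb2 (Or.inl rfl) hs hsv
      · obtain ⟨⟨A0, B0, Q, s, hs, hsv⟩, -⟩ := hends k z' hz' _ h1 h2
        exact Q.hz.hull_psi h hn1 Q.hy Q.hC hb1 hb2 (Or.inr rfl) hs hsv
    · intro k z' hz' b hb1 hb2 hb hb'
      obtain ⟨-, hN, hdis, hnot, hfr⟩ := hends (k + 1) z' hz' b hb hb'
      refine ⟨z' + Complex.I * n * cis b, hN, ?_, ?_, ?_⟩
      · rw [Set.disjoint_left]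
        intro t h1 h2
        exact Set.disjoint_left.1 hdis (show Complex.I * n * cis t ∈ _ from ⟨norm_In hn1 t, h1⟩)
          ⟨norm_In hn1 t, h2⟩
      · have hd' : dist z' (z' + Complex.I * n * cis b) = 1 := by
          rw [dist_comm]; exact dist_In hn1 z' b
        have h2 : ∃ᶠ t : ℝ in 𝓝 0, T (z' + Complex.I * n * cis b +
            (z' - (z' + Complex.I * n * cis b)) * cis t) ⊆ T (z' + Complex.I * n * cis b) := by
          intro h3
          exact hfr ((eventually_circle hd').2 h3)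
        have hc : Tendsto (fun t : ℝ => b + Real.pi + t) (𝓝 0) (𝓝 (b + Real.pi)) := by
          have : Continuous fun t : ℝ => b + Real.pi + t := continuous_const.add continuous_id
          have h4 := this.tendsto 0
          rwa [add_zero] at h4
        rw [mem_closure_iff_frequently]
        refine hc.frequently (h2.mono fun t ht => ?_)
        show T (z' + Complex.I * n * cis b + Complex.I * n * cis (b + Real.pi + t)) ⊆ _
        have e : z' + Complex.I * n * cis b + Complex.I * n * cis (b + Real.pi + t) =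
            z' + Complex.I * n * cis b + (z' - (z' + Complex.I * n * cis b)) * cis t := by
          rw [cis_add394, epi]; ring
        rw [e]; exact ht
      · intro h1
        have h1 : T (z' + Complex.I * n * cis b + Complex.I * n * cis (b + Real.pi)) ⊆
            T (z' + Complex.I * n * cis b) := h1
        rw [epi] at h1
        have e : z' + Complex.I * n * cis b + Complex.I * n * -cis b = z' := by ring
        rw [e] at h1
        exact hnot h1
  have hz : z ∈ S 4 := ⟨A, B, by rw [hn, add_sub_cancel]; exact P⟩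
  rw [hS] at hz
  exact hz

end DP

/-- **No D-star pair** -/
theorem Irr.noStarN (h : Irr U T) (hmin : MinF U T) (H : ∀ x A, Harm T x A → LN T x) :
    NoStar T := fun _z _A _z' _A' hA hA' hd hC =>
  (DP.of h hA hA' hd hC).falseN h hmin H

/-- harmless points have only harmless neighbours of order four -/
theorem DF.ln (h : DF U T)
    (hS : ∀ z A x, Harm T z A → dist x z = 1 → ∀ a b c d, ¬ DPt T x a b c d) {z : ℂ}
    {A : Set (Fin 6)} (hz : Harm T z A) : LN T z := by
  intro x hx
  filter_upwards [h.isolated x] with w hw h4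
  rcases h.harm_or h4 with hA | hD
  · exact hA
  · have h1 := hw hD
    rw [h1] at hD
    obtain ⟨a, b, c, d, hD⟩ := hD
    exact absurd hD (hS z A x hz hx a b c d)

/-- **No D-star pair** in the frame `DF` -/
theorem DF.noStar_of (h : DF U T)
    (hS : ∀ z A x, Harm T z A → dist x z = 1 → ∀ a b c d, ¬ DPt T x a b c d) : NoStar T :=
  h.irr.noStarN (fun z h4 s hs hne => h.mn z h4 s hs hne) fun _ _ hz => h.ln hS hz

/-- unit pairs of harmless points: the pair outside of one of them is the pair of the other -/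
theorem DF.up_of (h : DF U T)
    (hS : ∀ z A x, Harm T z A → dist x z = 1 → ∀ a b c d, ¬ DPt T x a b c d) {z x : ℂ}
    {A B : Set (Fin 6)} (hz : Harm T z A) (hx : Harm T x B) (hxz : dist x z = 1)
    (hC : T z \ A ⊆ T x) : B = T z \ A := by
  rcases hz.unit_pair h.irr (fun z h4 s hs hne => h.mn z h4 s hs hne) hx hxz hC with h1 | ⟨h1, -⟩
  · exact h1
  · exact absurd h1 (h.noStar_of hS z A x B hz hx (by rw [dist_comm]; exact hxz))

end Vale.Agent.P032.Six
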